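import Mathlib

/-! # P097 / H161: Taylor coefficients as integrals over the unit circle. -/

set_option linter.all false

open Complex Metric Set Filter Topology MeasureTheory
open scoped Real

namespace Vale.Agent.P097.H161.Mero

/-- coefficient of `x ^ n` (integral over the unit circle) -/
noncomputable def cf (f : ℂ → ℂ) (n : ℕ) : ℂ :=
  (2 * π * I : ℂ)⁻¹ • ∮ z in C(0, 1), (z⁻¹) ^ n • z⁻¹ • f z

theorem cf_congr {f g : ℂ → ℂ} (h : ∀ x : ℂ, ‖x‖ = 1 → f x = g x) (n : ℕ) : cf f n = cf g n := by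
  unfold cf
  congr 1
  refine circleIntegral.integral_congr zero_le_one fun z hz => ?_
  rw [mem_sphere_zero_iff_norm] at hz
  simp only [h z hz]

theorem cont_aux {f : ℂ → ℂ} (hf : ContinuousOn f (sphere 0 1)) (n : ℕ) :
    ContinuousOn (fun z : ℂ => (z⁻¹) ^ n • z⁻¹ • f z) (sphere 0 1) := by
  have h1 : ContinuousOn (fun z : ℂ => z⁻¹) (sphere (0 : ℂ) 1) := by
    refine ContinuousOn.inv₀ continuousOn_id fun z hz => ?_
    rw [mem_sphere_zero_iff_norm] at hz
    intro h0
    rw [show z = 0 from h0, norm_zero] at hz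
    exact zero_ne_one hz
  exact (h1.pow n).smul (h1.smul hf)

theorem cf_bd {f : ℂ → ℂ} {A : ℝ} (hA : ∀ x : ℂ, ‖x‖ = 1 → ‖f x‖ ≤ A) (n : ℕ) : ‖cf f n‖ ≤ A := by
  unfold cf
  have h := circleIntegral.norm_two_pi_i_inv_smul_integral_le_of_norm_le_const (c := 0) (R := 1)
    (f := fun z : ℂ => (z⁻¹) ^ n • z⁻¹ • f z) (C := A) zero_le_one (fun z hz => by
      rw [mem_sphere_zero_iff_norm] at hz
      rw [norm_smul, norm_smul, norm_pow, norm_inv, hz, inv_one, one_pow, one_mul, one_mul]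
      exact hA z hz)
  rwa [one_mul] at h

/-- Cauchy estimate on a larger circle -/
theorem cf_bd_large {G : ℂ → ℂ} {s B : ℝ} (hs : 1 ≤ s) (hG : ContinuousOn G (closedBall 0 s))
    (hd : ∀ x ∈ ball (0 : ℂ) s, DifferentiableAt ℂ G x) (hB : ∀ x : ℂ, ‖x‖ = s → ‖G x‖ ≤ B) (n : ℕ) :
    ‖cf G n‖ ≤ B / s ^ n := by
  have hs0 : 0 < s := by linarith
  have hne : ∀ z ∈ closedBall (0 : ℂ) s \ ball 0 1, z ≠ 0 := by
    rintro z hz rfl
    exact hz.2 (mem_ball_self one_pos)
  have h1 : (∮ z in C(0, s), (z⁻¹) ^ n • z⁻¹ • G z) = ∮ z in C(0, 1), (z⁻¹) ^ n • z⁻¹ • G z := by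
    refine Complex.circleIntegral_eq_of_differentiable_on_annulus_off_countable one_pos hs
      countable_empty ?_ ?_
    · have h2 : ContinuousOn (fun z : ℂ => z⁻¹) (closedBall (0 : ℂ) s \ ball 0 1) :=
        ContinuousOn.inv₀ continuousOn_id fun z hz => hne z hz
      exact (h2.pow n).smul (h2.smul (hG.mono diff_subset))
    · intro z hz
      have hz0 : z ≠ 0 := by
        rintro rfl
        exact hz.1.2 (mem_closedBall_self zero_le_one)
      have h3 := hd z hz.1.1
      have h2 : DifferentiableAt ℂ (fun z : ℂ => z⁻¹) z := differentiableAt_inv hz0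
      exact (h2.pow n).smul (h2.smul h3)
  unfold cf
  rw [← h1]
  have h := circleIntegral.norm_two_pi_i_inv_smul_integral_le_of_norm_le_const (c := 0) (R := s)
    (f := fun z : ℂ => (z⁻¹) ^ n • z⁻¹ • G z) (C := (s⁻¹) ^ n * (s⁻¹ * B)) hs0.le (fun z hz => by
      rw [mem_sphere_zero_iff_norm] at hz
      rw [norm_smul, norm_smul, norm_pow, norm_inv, hz]
      have := hB z hz
      gcongr)
  refine h.trans (le_of_eq ?_)
  rw [inv_pow]
  field_simp

/-- multiplication by a polynomial -/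
theorem cf_mul {f : ℂ → ℂ} (hf : ContinuousOn f (sphere 0 1)) (q : ℕ → ℂ) {N n : ℕ} (hn : N ≤ n) :
    cf (fun x => (∑ i ∈ Finset.range (N + 1), q i * x ^ i) * f x) n =
      ∑ i ∈ Finset.range (N + 1), q i * cf f (n - i) := by
  unfold cf
  have h1 : (∮ z in C(0, 1), (z⁻¹) ^ n • z⁻¹ •
      ((∑ i ∈ Finset.range (N + 1), q i * z ^ i) * f z)) =
      ∑ i ∈ Finset.range (N + 1), q i • ∮ z in C(0, 1), (z⁻¹) ^ (n - i) • z⁻¹ • f z := by
    have h2 : ∀ i, (q i • ∮ z in C(0, 1), (z⁻¹) ^ (n - i) • z⁻¹ • f z) =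
        ∮ z in C(0, 1), q i • ((z⁻¹) ^ (n - i) • z⁻¹ • f z) := by
      intro i
      rw [circleIntegral.integral_smul]
    simp only [h2]
    have h3 : ∀ S : Finset ℕ, S ⊆ Finset.range (N + 1) → (∮ z in C(0, 1),
        ∑ i ∈ S, q i • ((z⁻¹) ^ (n - i) • z⁻¹ • f z)) =
        ∑ i ∈ S, ∮ z in C(0, 1), q i • ((z⁻¹) ^ (n - i) • z⁻¹ • f z) := by
      intro S
      induction S using Finset.induction_on with
      | empty =>
        intro _
        simp [circleIntegral]
      | insert i S hi ih =>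
        intro hS
        simp only [Finset.sum_insert hi]
        have hc : ∀ i, ContinuousOn (fun z : ℂ => q i • ((z⁻¹) ^ (n - i) • z⁻¹ • f z))
            (sphere 0 1) := fun i => (cont_aux hf (n - i)).const_smul (q i)
        rw [circleIntegral.integral_add ((hc i).circleIntegrable zero_le_one)
          (ContinuousOn.circleIntegrable zero_le_one
            (continuousOn_finset_sum S fun j _ => hc j))]
        rw [ih ((Finset.subset_insert i S).trans hS)]
    rw [← h3 _ (Finset.Subset.refl _)]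
    refine circleIntegral.integral_congr zero_le_one fun z hz => ?_
    rw [mem_sphere_zero_iff_norm] at hz
    have hz0 : z ≠ 0 := by
      rintro rfl
      rw [norm_zero] at hz
      exact zero_ne_one hz
    simp only [smul_eq_mul, Finset.sum_mul, Finset.mul_sum]
    refine Finset.sum_congr rfl fun i hi => ?_
    rw [Finset.mem_range] at hi
    have h4 : (z⁻¹) ^ n * z ^ i = (z⁻¹) ^ (n - i) := by
      have h5 : n = (n - i) + i := by omega
      nth_rw 1 [h5]
      rw [pow_add, mul_assoc, ← mul_pow, inv_mul_cancel₀ hz0, one_pow, mul_one]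
    rw [← h4]
    ring
  rw [h1, Finset.smul_sum]
  refine Finset.sum_congr rfl fun i _ => ?_
  simp only [smul_eq_mul]
  ring

/-- expansion -/
theorem cf_hasSum {f : ℂ → ℂ} (hf : DifferentiableOn ℂ f (closedBall 0 1)) {x : ℂ} (hx : ‖x‖ < 1) :
    HasSum (fun n => cf f n * x ^ n) (f x) := by
  have h1 := (hf : DifferentiableOn ℂ f (closedBall 0 ((1 : NNReal) : ℝ))).hasFPowerSeriesOnBall
    one_pos
  have h2 := h1.hasSum (y := x) (by
    rw [mem_emetric_ball_zero_iff, enorm_eq_nnnorm]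
    exact_mod_cast (show ‖x‖₊ < 1 from hx))
  rw [zero_add] at h2
  have h3 : (fun n => (cauchyPowerSeries f 0 ((1 : NNReal) : ℝ) n) fun _ => x) =
      fun n => cf f n * x ^ n := by
    funext n
    rw [cauchyPowerSeries_apply]
    unfold cf
    simp only [sub_zero, smul_eq_mul, NNReal.coe_one]
    have e : (∮ z in C(0, 1), (x / z) ^ n * (z⁻¹ * f z)) =
        x ^ n * ∮ z in C(0, 1), (z⁻¹) ^ n * (z⁻¹ * f z) := by
      have h4 := circleIntegral.integral_smul (x ^ n) (fun z : ℂ => (z⁻¹) ^ n * (z⁻¹ * f z)) 0 1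
      simp only [smul_eq_mul] at h4
      rw [← h4]
      congr 1
      funext z
      rw [div_eq_mul_inv, mul_pow]
      ring
    rw [e]
    ring
  rw [h3] at h2
  exact h2

end Vale.Agent.P097.H161.Mero
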