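import Vale.Agent.P097.H161.Mero.Sec

/-! # P097 / H161: denominators for a function which is holomorphic on the unit disc and a quotient
on a larger disc. -/

set_option linter.all false

open Complex Metric Set Filter Topology
open scoped ComplexConjugate Real

namespace Vale.Agent.P097.H161.Mero

/-- Cauchy estimate on a larger circle, function on the annulus -/
theorem cf_bd_annulus {G : ℂ → ℂ} {s B : ℝ} (hs : 1 ≤ s)
    (hG : ContinuousOn G (closedBall 0 s \ ball 0 1))
    (hd : ∀ x ∈ ball (0 : ℂ) s \ closedBall 0 1, DifferentiableAt ℂ G x)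
    (hB : ∀ x : ℂ, ‖x‖ = s → ‖G x‖ ≤ B) (n : ℕ) : ‖cf G n‖ ≤ B / s ^ n := by
  have hs0 : 0 < s := by linarith
  have hne : ∀ z ∈ closedBall (0 : ℂ) s \ ball 0 1, z ≠ 0 := by
    rintro z hz rfl
    exact hz.2 (mem_ball_self one_pos)
  have h1 : (∮ z in C(0, s), (z⁻¹) ^ n • z⁻¹ • G z) = ∮ z in C(0, 1), (z⁻¹) ^ n • z⁻¹ • G z := by
    refine Complex.circleIntegral_eq_of_differentiable_on_annulus_off_countable one_pos hs
      countable_empty ?_ ?_
    · have h2 : ContinuousOn (fun z : ℂ => z⁻¹) (closedBall (0 : ℂ) s \ ball 0 1) :=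
        ContinuousOn.inv₀ continuousOn_id fun z hz => hne z hz
      exact (h2.pow n).smul (h2.smul hG)
    · intro z hz
      have hz0 : z ≠ 0 := by
        rintro rfl
        exact hz.1.2 (mem_closedBall_self zero_le_one)
      have h3 := hd z hz.1
      have h2 : DifferentiableAt ℂ (fun z : ℂ => z⁻¹) z := differentiableAt_inv hz0
      exact (h2.pow n).smul (h2.smul h3)
  unfold cf
  rw [← h1]
  have h := circleIntegral.norm_two_pi_i_inv_smul_integral_le_of_norm_le_const (c := 0) (R := s)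
    (f := fun z : ℂ => (z⁻¹) ^ n • z⁻¹ • G z) (C := (s⁻¹) ^ n * (s⁻¹ * B)) hs0.le (fun z hz => by
      rw [mem_sphere_zero_iff_norm] at hz
      rw [norm_smul, norm_smul, norm_pow, norm_inv, hz]
      have := hB z hz
      gcongr)
  refine h.trans (le_of_eq ?_)
  rw [inv_pow]
  field_simp

/-- one value of the parameter, base point `x₀` -/
theorem den_one' {f g h : ℂ → ℂ} {x₀ : ℂ} {s s' R' R'' M MP c₀ m T : ℝ} (hs : 1 < s) (hT : 0 < T)
    (hTs : T ≤ s) (hss : s + ‖x₀‖ < s') (hsR : s' < R') (hR : R' < R'')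
    (hg : DifferentiableOn ℂ g (ball x₀ R'')) (hh : DifferentiableOn ℂ h (ball x₀ R''))
    (hc : 0 < c₀) (hg0 : c₀ ≤ ‖g x₀‖) (hM : ∀ x ∈ closedBall x₀ R', ‖g x‖ ≤ M)
    (hMP : ∀ x : ℂ, ‖x‖ = s → ‖h x‖ ≤ MP) {n : ℕ} (hn : M < c₀ * (R' / s') ^ n)
    (hfc : ContinuousOn f (sphere 0 1)) (hfg : ∀ x : ℂ, ‖x‖ = 1 → g x * f x = h x) (hm : 0 < m)
    (hgs : ∀ x : ℂ, ‖x‖ = s → m ≤ ‖g x‖) : Den f n (MP * (1 + s) ^ n / m) T := by
  have hs0 : 0 < s := by linarith
  have hs'0 : 0 < s' := by linarith [norm_nonneg x₀]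
  -- factorization
  obtain ⟨N, hN, z, hz, E, hE, hE0, hgE⟩ := exists_fac (g := fun y => g (x₀ + y)) (s := s') (R' := R')
    (R'' := R'') (M := M) (c₀ := c₀) hs'0 hsR hR
    (by
      refine hg.comp (by fun_prop) fun y hy => ?_
      rw [mem_ball_zero_iff] at hy
      rw [mem_ball, dist_eq_norm, add_sub_cancel_left]; exact hy)
    hc (by simpa using hg0)
    (fun y hy => hM _ (by
      rw [mem_closedBall_zero_iff] at hy
      rw [mem_closedBall, dist_eq_norm, add_sub_cancel_left]; exact hy)) hn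
  have hin : ∀ x : ℂ, ‖x‖ ≤ s → ‖x - x₀‖ < s' := fun x hx =>
    (norm_sub_le _ _).trans_lt (by linarith)
  set X : Fin N → ℂ := fun i => x₀ + z i with hX
  set z' : Fin N → ℂ := fun i => if ‖X i‖ < 1 then 0 else X i with hz'
  set κ : ℂ → Fin N → ℂ := fun x i => if ‖X i‖ < 1 then (X i - x) / z i else X i / z i with hκ
  have hfac : ∀ x : ℂ, ∀ i, 1 - (x - x₀) / z i = κ x i * (1 - x / z' i) := by
    intro x i
    have h1 := (hz i).1
    have e : 1 - (x - x₀) / z i = (X i - x) / z i := by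
      simp only [hX]; field_simp; ring
    rw [e]
    simp only [hκ, hz']
    split_ifs with h2
    · rw [div_zero, sub_zero, mul_one]
    · have h3 : X i ≠ 0 := by
        intro h4
        rw [h4, norm_zero] at h2
        exact h2 one_pos
      field_simp
  have hκ0 : ∀ x : ℂ, 1 ≤ ‖x‖ → ∀ i, κ x i ≠ 0 := by
    intro x hx i
    have h1 := (hz i).1
    simp only [hκ]
    split_ifs with h2
    · refine div_ne_zero (sub_ne_zero.2 ?_) h1
      intro h3
      rw [h3] at h2
      linarith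
    · refine div_ne_zero ?_ h1
      intro h4
      rw [h4, norm_zero] at h2
      exact h2 one_pos
  obtain ⟨q, hq0, hq⟩ := prod_poly hN z'
  have hgx : ∀ x : ℂ, ‖x‖ ≤ s → g x = E (x - x₀) * (∏ i, κ x i) *
      ∑ i ∈ Finset.range (n + 1), q i * x ^ i := by
    intro x hx
    have h1 := hgE (x - x₀) (mem_ball_zero_iff.2 ((hin x hx).trans (hsR.trans hR)))
    rw [add_sub_cancel] at h1
    rw [h1, ← hq x, mul_assoc, ← Finset.prod_mul_distrib]
    congr 1
    exact Finset.prod_congr rfl fun i _ => hfac x i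
  have hE1 : ∀ x : ℂ, ‖x‖ ≤ s → E (x - x₀) ≠ 0 := fun x hx =>
    hE0 _ (mem_ball_zero_iff.2 (hin x hx))
  set G : ℂ → ℂ := fun x => h x / (E (x - x₀) * ∏ i, κ x i) with hG
  have hEd : ∀ x : ℂ, ‖x‖ ≤ s → DifferentiableAt ℂ (fun x => E (x - x₀)) x := by
    intro x hx
    have h1 : x - x₀ ∈ ball (0 : ℂ) R'' := mem_ball_zero_iff.2 ((hin x hx).trans (hsR.trans hR))
    have h2 : DifferentiableAt ℂ E (x - x₀) := (hE _ h1).differentiableAt (isOpen_ball.mem_nhds h1)
    exact DifferentiableAt.comp (g := E) x h2 (by fun_prop)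
  have hhd : ∀ x : ℂ, ‖x‖ ≤ s → DifferentiableAt ℂ h x := by
    intro x hx
    have h1 : x ∈ ball x₀ R'' := by
      rw [mem_ball, dist_eq_norm]; exact (hin x hx).trans (hsR.trans hR)
    exact (hh _ h1).differentiableAt (isOpen_ball.mem_nhds h1)
  have hκd : Differentiable ℂ fun x => ∏ i, κ x i := by
    refine Differentiable.fun_finset_prod fun i _ => ?_
    simp only [hκ]
    split_ifs
    · fun_prop
    · fun_prop
  have hGd : ∀ x : ℂ, 1 ≤ ‖x‖ → ‖x‖ ≤ s → DifferentiableAt ℂ G x := by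
    intro x hx1 hxs
    exact (hhd x hxs).fun_div ((hEd x hxs).fun_mul (hκd x))
      (mul_ne_zero (hE1 x hxs) (Finset.prod_ne_zero_iff.2 fun i _ => hκ0 x hx1 i))
  refine ⟨q, fun k => cf G k, hq0, ?_, ?_⟩
  · intro k hk
    show cf G k = _
    rw [← cf_mul hfc q hk]
    refine cf_congr (fun x hx => ?_) k
    have h1 := hE1 x (by rw [hx]; exact hs.le)
    have h2 : ∏ i, κ x i ≠ 0 := Finset.prod_ne_zero_iff.2 fun i _ => hκ0 x (by rw [hx]) i
    simp only [hG]
    rw [← hfg x hx, hgx x (by rw [hx]; exact hs.le)]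
    field_simp
  · intro k
    have h2 := cf_bd_annulus (G := G) hs.le (fun x hx => ?_) (fun x hx => ?_)
      (B := MP * (1 + s) ^ n / m) (fun x hx => ?_) k
    · refine h2.trans ?_
      have h5 : 0 ≤ MP * (1 + s) ^ n / m := by
        have h6 := hMP (s : ℂ) (by rw [Complex.norm_real, Real.norm_eq_abs, abs_of_pos hs0])
        have h7 := (norm_nonneg _).trans h6
        positivity
      have h8 : T ^ k ≤ s ^ k := pow_le_pow_left₀ hT.le hTs _
      exact div_le_div_of_nonneg_left h5 (by positivity) h8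
    · have h3 : ‖x‖ ≤ s := mem_closedBall_zero_iff.1 hx.1
      have h4 : 1 ≤ ‖x‖ := by
        by_contra hcon
        push Not at hcon
        exact hx.2 (mem_ball_zero_iff.2 hcon)
      exact (hGd x h4 h3).continuousAt.continuousWithinAt
    · have h3 : ‖x‖ < s := mem_ball_zero_iff.1 hx.1
      have h4 : 1 < ‖x‖ := by
        by_contra hcon
        push Not at hcon
        exact hx.2 (mem_closedBall_zero_iff.2 hcon)
      exact hGd x h4.le h3.le
    · have h3 := hgs x hx
      have h4 : ‖g x‖ = ‖E (x - x₀) * ∏ i, κ x i‖ * ‖∏ i, (1 - x / z' i)‖ := by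
        rw [hgx x hx.le, norm_mul, hq x]
      have h5 : ‖∏ i, (1 - x / z' i)‖ ≤ (1 + s) ^ n := by
        rw [norm_prod]
        have h6 : ∀ i ∈ (Finset.univ : Finset (Fin N)), ‖1 - x / z' i‖ ≤ 1 + s := by
          intro i _
          simp only [hz']
          split_ifs with h7
          · rw [div_zero, sub_zero, norm_one]; linarith
          · refine (norm_sub_le _ _).trans ?_
            rw [norm_one, norm_div, hx]
            push Not at h7
            have : s / ‖X i‖ ≤ s := div_le_self hs0.le h7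
            linarith
        refine (Finset.prod_le_prod (fun i _ => norm_nonneg _) h6).trans ?_
        rw [Finset.prod_const, Finset.card_univ, Fintype.card_fin]
        exact pow_le_pow_right₀ (by linarith) hN
      have h6 := hMP x hx
      have h7 : 0 < ‖E (x - x₀) * ∏ i, κ x i‖ := norm_pos_iff.2
        (mul_ne_zero (hE1 x hx.le) (Finset.prod_ne_zero_iff.2 fun i _ => hκ0 x (by rw [hx]; exact hs.le) i))
      have h8 : m ≤ ‖E (x - x₀) * ∏ i, κ x i‖ * (1 + s) ^ n := by
        rw [h4] at h3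
        exact h3.trans (mul_le_mul_of_nonneg_left h5 (norm_nonneg _))
      simp only [hG]
      rw [norm_div, div_le_div_iff₀ h7 hm]
      calc ‖h x‖ * m ≤ MP * (‖E (x - x₀) * ∏ i, κ x i‖ * (1 + s) ^ n) :=
            mul_le_mul h6 h8 hm.le ((norm_nonneg _).trans h6)
        _ = MP * (1 + s) ^ n * ‖E (x - x₀) * ∏ i, κ x i‖ := by ring

end Vale.Agent.P097.H161.Mero
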