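import Vale.Agent.P097.H161.Mero.MJ
import Vale.Agent.P097.H161.Mero.Den2

/-! # P097 / H161: the core of the sector extension (from denominators on a circle), and the local
denominators. -/

set_option linter.all false

open Complex Metric Set Filter Topology

namespace Vale.Agent.P097.H161.Mero

theorem core {f : ℂ × ℂ → ℂ} {Ω : Set (ℂ × ℂ)} (hΩ : IsOpen Ω) (hf : DifferentiableOn ℂ f Ω)
    {R T₂ c r₁ : ℝ} (hR : 1 < R) (hT₂ : R < T₂) (hc : 0 < c) (hr₁ : 0 < r₁)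
    (hin : ∀ w : ℂ, ‖w‖ < r₁ → ∀ x : ℂ, ‖x‖ ≤ 1 → (x, w) ∈ Ω)
    (hD₁ : ∀ T₁, 1 < T₁ → T₁ < R → ∃ r' > 0, ∀ r, 0 < r → r < r' → ∃ (N : ℕ) (B : ℝ), 1 ≤ B ∧
      ∀ w : ℂ, ‖w‖ = r → Den (fun x => f (x, w)) N B T₁)
    (hD₂ : ∃ r' > 0, ∀ r, 0 < r → r < r' → ∃ (N : ℕ) (B : ℝ), 1 ≤ B ∧
      ∀ w : ℂ, ‖w‖ = r → |w.im| < c * |w.re| → Den (fun x => f (x, w)) N B T₂) :
    ∃ R' > R, ∃ (q : Polynomial ℂ) (F : ℂ → ℂ), q ≠ 0 ∧ DifferentiableOn ℂ F (ball 0 R') ∧
      ∀ x : ℂ, ‖x‖ < 1 → F x = q.eval x * f (x, 0) := by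
  obtain ⟨t, htne, ht1, ht2⟩ := exists_rot hc
  set m := t.card with hm
  have hm0 : 0 < m := Finset.card_pos.2 htne
  have hR0 : 0 < R := by linarith
  -- choice of y
  obtain ⟨y, hy0, hy1, hy2⟩ : ∃ y > 0, y < R - 1 ∧ (R + y) ^ m < T₂ * (R - y) ^ (m - 1) := by
    have hcont : Continuous fun y : ℝ => T₂ * (R - y) ^ (m - 1) - (R + y) ^ m := by fun_prop
    have h3 : 0 < T₂ * (R - 0) ^ (m - 1) - (R + 0) ^ m := by
      rw [sub_zero, add_zero]
      have e : R ^ m = R * R ^ (m - 1) := by rw [← pow_succ']; congr 1; omega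
      rw [e, ← sub_mul]
      exact mul_pos (by linarith) (by positivity)
    have h4 := (hcont.tendsto 0).eventually_const_lt h3
    obtain ⟨ε, hε, h5⟩ := Metric.eventually_nhds_iff.1 h4
    refine ⟨min (ε / 2) ((R - 1) / 2), by
      have : 0 < R - 1 := by linarith
      positivity, ?_, ?_⟩
    · refine (min_le_right _ _).trans_lt ?_
      linarith
    · have h6 := h5 (y := min (ε / 2) ((R - 1) / 2)) (by
        rw [Real.dist_eq, sub_zero, abs_of_nonneg (by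
          have : 0 < R - 1 := by linarith
          positivity)]
        exact (min_le_left _ _).trans_lt (by linarith))
      linarith
  set T₁ := R - y with hT₁
  set R₂ := R + y with hR₂
  have hT₁1 : 1 < T₁ := by rw [hT₁]; linarith
  have hT₂1 : 1 < T₂ := by linarith
  have hR₂1 : 1 < R₂ := by rw [hR₂]; linarith
  obtain ⟨r₂, hr₂, hD₁⟩ := hD₁ T₁ hT₁1 (by rw [hT₁]; linarith)
  obtain ⟨r₃, hr₃, hD₂⟩ := hD₂
  set r := min (min r₁ r₂) r₃ / 2 with hr
  have hr0 : 0 < r := by positivity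
  have hrr₁ : r < r₁ := by
    have : min (min r₁ r₂) r₃ ≤ r₁ := (min_le_left _ _).trans (min_le_left _ _)
    rw [hr]; linarith
  have hrr₂ : r < r₂ := by
    have : min (min r₁ r₂) r₃ ≤ r₂ := (min_le_left _ _).trans (min_le_right _ _)
    rw [hr]; linarith
  have hrr₃ : r < r₃ := by
    have : min (min r₁ r₂) r₃ ≤ r₃ := min_le_right _ _
    rw [hr]; linarith
  -- bound of the coefficients
  obtain ⟨A₀, hA₀⟩ : ∃ A₀, ∀ w : ℂ, ‖w‖ ≤ r → ∀ x : ℂ, ‖x‖ = 1 → ‖f (x, w)‖ ≤ A₀ := by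
    have hK : IsCompact (sphere (0 : ℂ) 1 ×ˢ closedBall (0 : ℂ) r) :=
      (isCompact_sphere _ _).prod (isCompact_closedBall _ _)
    obtain ⟨A₀, hA₀⟩ := hK.exists_bound_of_continuousOn (hf.continuousOn.mono (by
      rintro ⟨x, w⟩ ⟨hx, hw⟩
      rw [mem_sphere_zero_iff_norm] at hx
      rw [mem_closedBall_zero_iff] at hw
      exact hin w (hw.trans_lt hrr₁) x hx.le))
    exact ⟨A₀, fun w hw x hx => hA₀ (x, w) ⟨mem_sphere_zero_iff_norm.2 hx,
      mem_closedBall_zero_iff.2 hw⟩⟩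
  set A := max 1 A₀ with hA
  have hA1 : 1 ≤ A := le_max_left _ _
  have hAf : ∀ w : ℂ, ‖w‖ ≤ r → ∀ x : ℂ, ‖x‖ = 1 → ‖f (x, w)‖ ≤ A := fun w hw x hx =>
    (hA₀ w hw x hx).trans (le_max_right _ _)
  -- denominators
  obtain ⟨N₁, B₁, hB₁, hD₁⟩ := hD₁ r hr0 hrr₂
  obtain ⟨N₂, B₂, hB₂, hD₂⟩ := hD₂ r hr0 hrr₃
  set N := max N₁ N₂ with hN
  set B := max B₁ B₂ with hB
  have hB1 : 1 ≤ B := hB₁.trans (le_max_left _ _)
  -- choice of p
  set Z := T₂ * T₁ ^ (m - 1) with hZ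
  clear_value Z
  have hZ1 : 1 < Z := by
    have h3 : 1 ≤ T₁ ^ (m - 1) := one_le_pow₀ hT₁1.le
    rw [hZ]; nlinarith
  have hR₂m : 0 < R₂ ^ m := by positivity
  obtain ⟨p₀, hp₀⟩ := pow_unbounded_of_one_lt (Z ^ N)
    (show 1 < Z / R₂ ^ m by rw [one_lt_div hR₂m]; exact hy2)
  set p := max p₀ N with hp
  have hpN : N ≤ p + 1 := (le_max_right _ _).trans (Nat.le_succ _)
  have hZp : (R₂ ^ m) ^ (p + 1) ≤ Z ^ (p + 1 - N) := by
    have h3 : Z ^ N ≤ (Z / R₂ ^ m) ^ (p + 1) := by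
      refine hp₀.le.trans (pow_le_pow_right₀ ?_ ((le_max_left _ _).trans (Nat.le_succ _)))
      rw [one_le_div hR₂m]; exact hy2.le
    rw [div_pow, le_div_iff₀ (by positivity)] at h3
    have h4 : Z ^ (p + 1) = Z ^ N * Z ^ (p + 1 - N) := by rw [← pow_add]; congr 1; omega
    rw [h4] at h3
    exact le_of_mul_le_mul_left h3 (by positivity)
  set E := ((p + 1).factorial : ℝ) * (A * B) ^ (p + 1) with hE
  have hE0 : 0 < E := by positivity
  clear_value E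
  have hA0' : 0 < A := by linarith
  have hB0' : 0 < B := by linarith
  -- the bound of the minors at w = 0
  have hkey : ∀ k I, ‖mn (cf (fun x => f (x, 0))) p k I‖ ≤
      (((p + 1).factorial : ℝ) * (A * B) * (R₂⁻¹) ^ k) ^ (p + 1) := by
    intro k I
    set D : ℂ → ℂ := fun w => mn (cf (fun x => f (x, w))) p k I with hD
    have hDd : DifferentiableOn ℂ D (ball 0 r₁) := by
      refine mn_diff (a := fun w => cf (fun x => f (x, w))) (fun n => ?_) p k I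
      exact cf_diff hΩ hf isOpen_ball
        (fun w hw x hx => hin w (mem_ball_zero_iff.1 hw) x hx.le) n
    have hY : ∀ w : ℂ, ‖w‖ = r → ‖D w‖ ≤ E / (T₁ ^ (p + 1 - N)) ^ k := by
      intro w hw
      have h3 := mn_of_den hpN hA1 (hAf w hw.le) hB1 hT₁1.le
        ((hD₁ w hw).mono (le_max_left _ _) (le_max_left _ _) (by linarith)) k I
      refine h3.trans (le_of_eq ?_)
      rw [hE, mul_div_assoc]
    have hX : ∀ w : ℂ, ‖w‖ = r → |w.im| < c * |w.re| → ‖D w‖ ≤ E / (T₂ ^ (p + 1 - N)) ^ k := by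
      intro w hw hw2
      have h3 := mn_of_den hpN hA1 (hAf w hw.le) hB1 hT₂1.le
        ((hD₂ w hw hw2).mono (le_max_right _ _) (le_max_right _ _) (by linarith)) k I
      refine h3.trans (le_of_eq ?_)
      rw [hE, mul_div_assoc]
    have h3 := rot_bd hr0 hrr₁ hDd htne ht1 ht2 hX hY (by positivity) (by positivity)
    have h4 : E / (T₂ ^ (p + 1 - N)) ^ k * (E / (T₁ ^ (p + 1 - N)) ^ k) ^ (m - 1) =
        E ^ m / (Z ^ (p + 1 - N)) ^ k := by
      have e1 : E ^ m = E * E ^ (m - 1) := by rw [← pow_succ']; congr 1; omega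
      have e2 : (T₂ ^ (p + 1 - N)) ^ k * ((T₁ ^ (p + 1 - N)) ^ k) ^ (m - 1) =
          (Z ^ (p + 1 - N)) ^ k := by
        rw [hZ, mul_pow, mul_pow]
        congr 1
        rw [← pow_mul, ← pow_mul, ← pow_mul, ← pow_mul]
        congr 1
        ring
      rw [div_pow, div_mul_div_comm, e1, e2]
    rw [← hm, h4] at h3
    have h5 : E ^ m / (Z ^ (p + 1 - N)) ^ k ≤ (E * ((R₂⁻¹) ^ k) ^ (p + 1)) ^ m := by
      have h6 : ((R₂ ^ m) ^ (p + 1)) ^ k ≤ (Z ^ (p + 1 - N)) ^ k :=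
        pow_le_pow_left₀ (by positivity) hZp k
      have e5 : ((R₂⁻¹) ^ k) ^ (p + 1) = (R₂ ^ (k * (p + 1)))⁻¹ := by
        rw [inv_pow, inv_pow, ← pow_mul]
      have e6 : (((R₂ ^ m) ^ (p + 1)) ^ k) = (R₂ ^ (k * (p + 1))) ^ m := by
        rw [← pow_mul, ← pow_mul, ← pow_mul]
        congr 1
        ring
      calc E ^ m / (Z ^ (p + 1 - N)) ^ k ≤ E ^ m / ((R₂ ^ m) ^ (p + 1)) ^ k :=
            div_le_div_of_nonneg_left (by positivity) (by positivity) h6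
        _ = (E * ((R₂⁻¹) ^ k) ^ (p + 1)) ^ m := by
          rw [e5, e6, mul_pow, inv_pow, div_eq_mul_inv]
    have h7 : ‖D 0‖ ≤ E * ((R₂⁻¹) ^ k) ^ (p + 1) :=
      le_of_pow_le_pow_left₀ hm0.ne' (by positivity) (h3.trans h5)
    refine h7.trans ?_
    have h8 : (1 : ℝ) ≤ (p + 1).factorial := by
      exact_mod_cast Nat.one_le_iff_ne_zero.2 (Nat.factorial_ne_zero _)
    have h9 : ((p + 1).factorial : ℝ) ≤ ((p + 1).factorial : ℝ) ^ (p + 1) :=
      le_self_pow₀ h8 (Nat.succ_ne_zero p)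
    have h10 : E ≤ (((p + 1).factorial : ℝ) * (A * B)) ^ (p + 1) := by
      rw [hE, mul_pow (((p + 1).factorial : ℝ))]
      exact mul_le_mul_of_nonneg_right h9 (by positivity)
    rw [mul_pow (((p + 1).factorial : ℝ) * (A * B))]
    exact mul_le_mul_of_nonneg_right h10 (by positivity)
  -- conclusion
  have hfd : DifferentiableOn ℂ (fun x => f (x, 0)) (closedBall 0 1) := by
    intro x hx
    rw [mem_closedBall_zero_iff] at hx
    exact (slice_diff hΩ hf (hin 0 (by rw [norm_zero]; exact hr₁) x hx)).differentiableWithinAt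
  set τ₁ := R + y / 3 with hτ₁
  set τ := R + y / 2 with hτ
  obtain ⟨q, F, hq, hF, hFq⟩ := Vale.Agent.P097.H161.Mero.hc (a := cf (fun x => f (x, 0))) (p := p)
    (A := A) (C₁ := ((p + 1).factorial : ℝ) * (A * B)) (θ := R₂⁻¹) (τ := τ) (τ₁ := τ₁)
    (f := fun x => f (x, 0))
    (fun n => cf_bd (hAf 0 (by rw [norm_zero]; exact hr0.le)) n) (by positivity) (by positivity)
    (by rw [hτ₁]; linarith) (by rw [hτ₁, hτ]; linarith)
    (by
      rw [inv_mul_lt_iff₀ (by positivity), mul_one, hτ, hR₂]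
      linarith)
    hkey (fun x hx => cf_hasSum hfd hx)
  exact ⟨τ₁, by rw [hτ₁]; linarith, q, F, hq, hF, hFq⟩

/-- local denominators near `w₁` -/
theorem loc {f P Q : ℂ × ℂ → ℂ} {Ω : Set (ℂ × ℂ)} (hΩ : IsOpen Ω) (hf : DifferentiableOn ℂ f Ω)
    {T T' ϱ rη ε δ : ℝ} {w₁ : ℂ} (hT : 1 < T) (hTT' : T < T') (hϱ : 1 < ϱ) (hε : 0 < ε) (hδ : 0 < δ)
    (hw₁ : ‖w₁‖ < rη) (hin : ∀ x w : ℂ, ‖x‖ < ϱ → ‖w‖ < rη → (x, w) ∈ Ω)
    (hP : DifferentiableOn ℂ P (ball 0 T' ×ˢ ball w₁ ε))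
    (hQ : DifferentiableOn ℂ Q (ball 0 T' ×ˢ ball w₁ ε))
    (hQ1 : ∃ x ∈ ball (0 : ℂ) T', Q (x, w₁) ≠ 0)
    (hid : ∀ x ∈ ball (0 : ℂ) δ, ∀ w ∈ ball w₁ ε, (x, w) ∈ Ω → Q (x, w) * f (x, w) = P (x, w)) :
    ∃ (N : ℕ) (B : ℝ), 1 ≤ B ∧ ∀ᶠ w in 𝓝 w₁, Den (fun x => f (x, w)) N B T := by
  have hT0 : 0 < T := by linarith
  have hT'0 : 0 < T' := by linarith
  have hUo : IsOpen (ball (0 : ℂ) T' ×ˢ ball w₁ ε) := isOpen_ball.prod isOpen_ball
  set d := T' - T with hd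
  have hd0 : 0 < d := by rw [hd]; linarith
  have hsl : ∀ w ∈ ball w₁ ε, DifferentiableOn ℂ (fun x => Q (x, w)) (ball 0 T') := fun w hw x hx =>
    (slice_diff hUo hQ (mk_mem_prod hx hw)).differentiableWithinAt
  have hslP : ∀ w ∈ ball w₁ ε, DifferentiableOn ℂ (fun x => P (x, w)) (ball 0 T') := fun w hw x hx =>
    (slice_diff hUo hP (mk_mem_prod hx hw)).differentiableWithinAt
  have hw₁ε : w₁ ∈ ball w₁ ε := mem_ball_self hε
  -- the base point
  obtain ⟨x₀, hx₀, hQx₀⟩ : ∃ x₀ : ℂ, ‖x₀‖ < d / 8 ∧ Q (x₀, w₁) ≠ 0 := by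
    by_contra hcon
    push Not at hcon
    obtain ⟨x, hx, hQx⟩ := hQ1
    have e1 : AnalyticOnNhd ℂ (fun x => Q (x, w₁)) (ball 0 T') := (hsl w₁ hw₁ε).analyticOnNhd isOpen_ball
    have e2 := e1.eqOn_zero_of_preconnected_of_eventuallyEq_zero (convex_ball _ _).isPreconnected
      (mem_ball_self hT'0) (by
        filter_upwards [ball_mem_nhds (0 : ℂ) (show 0 < d / 8 by linarith)] with x hx
        exact hcon x (mem_ball_zero_iff.1 hx))
    exact hQx (e2 hx)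
  set s₂ := T + 4 * d / 8 with hs₂
  set s₃ := T + 6 * d / 8 with hs₃
  set s₄ := T + 7 * d / 8 with hs₄
  have hT' : T' = T + d := by rw [hd]; ring
  have h23 : s₂ < s₃ := by rw [hs₃, hs₂]; linarith
  have h34 : s₃ < s₄ := by rw [hs₃, hs₄]; linarith
  have hs₂0 : 0 < s₂ := by rw [hs₂]; linarith
  have hb4 : ball x₀ s₄ ⊆ ball 0 T' := by
    intro x hx
    rw [mem_ball, dist_eq_norm] at hx
    rw [mem_ball_zero_iff]
    calc ‖x‖ = ‖(x - x₀) + x₀‖ := by rw [sub_add_cancel]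
      _ ≤ ‖x - x₀‖ + ‖x₀‖ := norm_add_le _ _
      _ < T' := by rw [hT']; linarith
  have hb3 : closedBall x₀ s₃ ⊆ ball 0 T' := (closedBall_subset_ball h34).trans hb4
  -- bounds
  have hKc : IsCompact (closedBall x₀ s₃ ×ˢ closedBall w₁ (ε / 2)) :=
    (isCompact_closedBall _ _).prod (isCompact_closedBall _ _)
  have hKs : closedBall x₀ s₃ ×ˢ closedBall w₁ (ε / 2) ⊆ ball (0 : ℂ) T' ×ˢ ball w₁ ε :=
    prod_mono hb3 (closedBall_subset_ball (by linarith))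
  obtain ⟨M, hM⟩ := hKc.exists_bound_of_continuousOn (hQ.continuousOn.mono hKs)
  obtain ⟨MP, hMP⟩ := hKc.exists_bound_of_continuousOn (hP.continuousOn.mono hKs)
  set c₀ := ‖Q (x₀, w₁)‖ / 2 with hc₀
  have hc₀0 : 0 < c₀ := by
    have := norm_pos_iff.2 hQx₀
    rw [hc₀]; linarith
  have h1 : 1 < s₃ / s₂ := by rw [one_lt_div hs₂0]; exact h23
  obtain ⟨n, hn⟩ := pow_unbounded_of_one_lt (M / c₀) h1
  rw [div_lt_iff₀ hc₀0, mul_comm] at hn
  -- the circle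
  obtain ⟨s, hs, hs'⟩ : ∃ s ∈ Ioo T (T + 2 * d / 8), ∀ x : ℂ, ‖x‖ = s → Q (x, w₁) ≠ 0 := by
    obtain ⟨N, -, z, hz, E, -, hE0, hgE⟩ := exists_fac (g := fun y => Q (x₀ + y, w₁)) (s := s₂)
      (R' := s₃) (R'' := s₄) (M := M) (c₀ := c₀) (n := n) hs₂0 h23 h34
      (by
        refine DifferentiableOn.comp (g := fun x => Q (x, w₁)) (hsl w₁ hw₁ε) (f := fun y => x₀ + y)
          (by fun_prop) fun y hy => hb4 ?_
        rw [mem_ball_zero_iff] at hy
        rw [mem_ball, dist_eq_norm, add_sub_cancel_left]; exact hy)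
      hc₀0 (by
        simp only [add_zero]
        rw [hc₀]
        linarith [norm_nonneg (Q (x₀, w₁))])
      (fun y hy => hM (x₀ + y, w₁) ⟨by
        rw [mem_closedBall_zero_iff] at hy
        show x₀ + y ∈ closedBall x₀ s₃
        rw [mem_closedBall, dist_eq_norm, add_sub_cancel_left]; exact hy,
        mem_closedBall_self (by linarith)⟩) hn
    have hfin : (Set.range fun i => ‖x₀ + z i‖).Finite := Set.finite_range _
    have hinf : (Ioo T (T + 2 * d / 8)).Infinite := Ioo_infinite (by linarith)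
    obtain ⟨s, hs, hs'⟩ := (hinf.diff hfin).nonempty
    refine ⟨s, hs, fun x hx => ?_⟩
    have hxx : ‖x - x₀‖ < s₂ := by
      refine (norm_sub_le _ _).trans_lt ?_
      rw [hx, hs₂]
      have := hs.2
      linarith
    have h2 := hgE (x - x₀) (mem_ball_zero_iff.2 (by linarith))
    simp only [add_sub_cancel] at h2
    rw [h2]
    refine mul_ne_zero (hE0 _ (mem_ball_zero_iff.2 hxx)) (Finset.prod_ne_zero_iff.2 fun i _ => ?_)
    intro h3
    apply hs'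
    refine ⟨i, ?_⟩
    have h4 : (x - x₀) / z i = 1 := (sub_eq_zero.1 h3).symm
    rw [div_eq_one_iff_eq (hz i).1] at h4
    simp only [← h4, add_sub_cancel, hx]
  have hs0 : 0 < s := by linarith [hs.1]
  have hsph : sphere (0 : ℂ) s ⊆ closedBall x₀ s₃ := by
    intro x hx
    rw [mem_sphere_zero_iff_norm] at hx
    rw [mem_closedBall, dist_eq_norm]
    refine (norm_sub_le _ _).trans ?_
    rw [hx, hs₃]
    have := hs.2
    linarith
  -- lower bound on the circle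
  have hQc : ContinuousOn (fun x => Q (x, w₁)) (sphere (0 : ℂ) s) :=
    (hsl w₁ hw₁ε).continuousOn.mono (hsph.trans hb3)
  obtain ⟨x₁, hx₁, hmin⟩ := (isCompact_sphere (0 : ℂ) s).exists_isMinOn
    (NormedSpace.sphere_nonempty.2 hs0.le) hQc.norm
  set m := ‖Q (x₁, w₁)‖ / 2 with hm
  have hQ1' : 0 < ‖Q (x₁, w₁)‖ := norm_pos_iff.2 (hs' x₁ (mem_sphere_zero_iff_norm.1 hx₁))
  have hm0 : 0 < m := by
    rw [hm]; linarith
  have hcat : ∀ x ∈ ball (0 : ℂ) T', ContinuousAt (fun z : ℂ × ℂ => ‖Q (z.2, z.1)‖) (w₁, x) := by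
    intro x hx
    have h2 : ContinuousAt Q (x, w₁) :=
      hQ.continuousOn.continuousAt (hUo.mem_nhds (mk_mem_prod hx hw₁ε))
    refine ContinuousAt.norm ?_
    exact ContinuousAt.comp (g := Q) (f := fun z : ℂ × ℂ => (z.2, z.1)) h2 (by fun_prop)
  have hev : ∀ᶠ w in 𝓝 w₁, ∀ x ∈ sphere (0 : ℂ) s, m ≤ ‖Q (x, w)‖ := by
    refine (isCompact_sphere (0 : ℂ) s).eventually_forall_of_forall_eventually
      (P := fun w x => m ≤ ‖Q (x, w)‖) fun x hx => ?_
    have h4 : m < ‖Q (x, w₁)‖ := by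
      have h5 : ‖Q (x₁, w₁)‖ ≤ ‖Q (x, w₁)‖ := hmin hx
      rw [hm]; linarith
    exact ((hcat x (hb3 (hsph hx))).eventually_const_lt h4).mono fun z hz => le_of_lt hz
  have hev0 : ∀ᶠ w in 𝓝 w₁, c₀ ≤ ‖Q (x₀, w)‖ := by
    have h4 : c₀ < ‖Q (x₀, w₁)‖ := by
      have := norm_pos_iff.2 hQx₀
      rw [hc₀]; linarith
    have h5 : ContinuousAt (fun w => ‖Q (x₀, w)‖) w₁ := by
      have h6 : x₀ ∈ ball (0 : ℂ) T' := hb3 (mem_closedBall_self (by linarith))
      exact ContinuousAt.comp (g := fun z : ℂ × ℂ => ‖Q (z.2, z.1)‖) (f := fun w => (w, x₀))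
        (hcat x₀ h6) (by fun_prop)
    exact (h5.eventually_const_lt h4).mono fun z hz => le_of_lt hz
  have hev1 : ∀ᶠ w in 𝓝 w₁, w ∈ ball w₁ (ε / 2) := ball_mem_nhds _ (by linarith)
  have hev2 : ∀ᶠ w : ℂ in 𝓝 w₁, ‖w‖ < rη := continuous_norm.continuousAt.eventually_lt_const hw₁
  refine ⟨n, max 1 (MP * (1 + s) ^ n / m), le_max_left _ _, ?_⟩
  filter_upwards [hev, hev0, hev1, hev2] with w e1 e2 e3 e4
  have hwε : w ∈ ball w₁ ε := ball_subset_ball (by linarith) e3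
  have hwε2 : w ∈ closedBall w₁ (ε / 2) := ball_subset_closedBall e3
  refine Den.mono ?_ le_rfl (le_max_right _ _) hT0
  refine den_one' (g := fun x => Q (x, w)) (h := fun x => P (x, w)) (x₀ := x₀) (s := s) (s' := s₂)
    (R' := s₃) (R'' := s₄) (M := M) (c₀ := c₀) (by linarith [hs.1]) hT0 hs.1.le
    (by rw [hs₂]; have := hs.2; linarith) h23 h34 ((hsl w hwε).mono hb4) ((hslP w hwε).mono hb4)
    hc₀0 e2 (fun x hx => hM (x, w) ⟨hx, hwε2⟩)
    (fun x hx => hMP (x, w) ⟨hsph (mem_sphere_zero_iff_norm.2 hx), hwε2⟩) hn ?_ ?_ hm0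
    (fun x hx => e1 x (mem_sphere_zero_iff_norm.2 hx))
  · intro x hx
    rw [mem_sphere_zero_iff_norm] at hx
    exact (slice_diff hΩ hf (hin x w (by rw [hx]; exact hϱ) e4)).continuousAt.continuousWithinAt
  · -- identity theorem
    intro x hx
    set ϱ' := min ϱ T' with hϱ'
    have hϱ'0 : 1 < ϱ' := lt_min hϱ (by linarith)
    have hfan : DifferentiableOn ℂ (fun x => f (x, w)) (ball 0 ϱ') := fun x hx =>
      (slice_diff hΩ hf (hin x w ((mem_ball_zero_iff.1 hx).trans_le (min_le_left _ _))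
        e4)).differentiableWithinAt
    have hsubϱ : ball (0 : ℂ) ϱ' ⊆ ball 0 T' := ball_subset_ball (min_le_right _ _)
    have a1 : AnalyticOnNhd ℂ (fun x => Q (x, w) * f (x, w)) (ball 0 ϱ') :=
      (((hsl w hwε).mono hsubϱ).mul hfan).analyticOnNhd isOpen_ball
    have a2 : AnalyticOnNhd ℂ (fun x => P (x, w)) (ball 0 ϱ') :=
      ((hslP w hwε).mono hsubϱ).analyticOnNhd isOpen_ball
    have a3 := a1.eqOn_of_preconnected_of_eventuallyEq a2 (convex_ball _ _).isPreconnected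
      (mem_ball_self (by linarith)) (by
        filter_upwards [ball_mem_nhds (0 : ℂ) (show 0 < min δ ϱ by
          have : 0 < ϱ := by linarith
          positivity)] with x hx
        have hx' := mem_ball_zero_iff.1 hx
        exact hid x (mem_ball_zero_iff.2 (hx'.trans_le (min_le_left _ _))) w hwε
          (hin x w (hx'.trans_le (min_le_right _ _)) e4))
    exact a3 (mem_ball_zero_iff.2 (by rw [hx]; exact hϱ'0))

end Vale.Agent.P097.H161.Mero
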