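import Mathlib

/-! # P097 / H161: circles avoiding the zeros of a sequence of polynomials. -/

set_option linter.all false

open Polynomial Metric Set Filter Topology MeasureTheory

namespace Vale.Agent.P097.H161.Mero

theorem coeff_prod_le (s : Multiset ℂ) (n : ℕ) :
    ‖((s.map fun z => (X - C z : ℂ[X])).prod).coeff n‖ ≤ (s.map fun z => 1 + ‖z‖).prod := by
  induction s using Multiset.induction_on generalizing n with
  | empty =>
    simp only [Multiset.map_zero, Multiset.prod_zero]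
    rw [Polynomial.coeff_one]
    split_ifs <;> simp
  | cons z s ih =>
    simp only [Multiset.map_cons, Multiset.prod_cons]
    rw [sub_mul, Polynomial.coeff_sub, Polynomial.coeff_C_mul]
    have h1 : ‖(X * (s.map fun z => (X - C z : ℂ[X])).prod).coeff n‖ ≤
        (s.map fun z => 1 + ‖z‖).prod := by
      rcases n with _ | n
      · rw [Polynomial.coeff_X_mul_zero, norm_zero]
        exact (norm_nonneg _).trans (ih 0)
      · rw [Polynomial.coeff_X_mul]
        exact ih n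
    calc _ ≤ ‖(X * (s.map fun z => (X - C z : ℂ[X])).prod).coeff n‖ +
          ‖z * ((s.map fun z => (X - C z : ℂ[X])).prod).coeff n‖ := norm_sub_le _ _
      _ ≤ (s.map fun z => 1 + ‖z‖).prod + ‖z‖ * (s.map fun z => 1 + ‖z‖).prod := by
        rw [norm_mul]
        exact add_le_add h1 (mul_le_mul_of_nonneg_left (ih n) (norm_nonneg _))
      _ = (1 + ‖z‖) * (s.map fun z => 1 + ‖z‖).prod := by ring

theorem prod_low (s : Multiset ℂ) {x : ℂ} {η : ℝ} (hη : 0 ≤ η)
    (h : ∀ z ∈ s, η * (1 + ‖z‖) ≤ ‖x - z‖) :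
    η ^ (Multiset.card s) * (s.map fun z => 1 + ‖z‖).prod ≤ ‖(s.map fun z => x - z).prod‖ := by
  induction s using Multiset.induction_on with
  | empty => simp
  | cons z s ih =>
    simp only [Multiset.map_cons, Multiset.prod_cons, Multiset.card_cons]
    rw [norm_mul]
    have h1 := ih fun w hw => h w (Multiset.mem_cons_of_mem hw)
    have h2 := h z (Multiset.mem_cons_self z s)
    have h3 : 0 ≤ (s.map fun z => 1 + ‖z‖).prod := by
      refine Multiset.prod_nonneg fun y hy => ?_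
      obtain ⟨w, _, rfl⟩ := Multiset.mem_map.1 hy
      positivity
    calc η ^ (Multiset.card s + 1) * ((1 + ‖z‖) * (s.map fun z => 1 + ‖z‖).prod) =
        (η * (1 + ‖z‖)) * (η ^ (Multiset.card s) * (s.map fun z => 1 + ‖z‖).prod) := by ring
      _ ≤ _ := mul_le_mul h2 h1 (by positivity) (norm_nonneg _)

theorem eval_low {Q : ℂ[X]} {p n : ℕ} (hp : Q.natDegree ≤ p) (hn : 1 ≤ ‖Q.coeff n‖) {s τ d : ℝ}
    (hs : 1 ≤ s) (hsτ : s ≤ τ) (hd : 0 < d) (hd1 : d ≤ 1) (hr : ∀ z ∈ Q.roots, d ≤ |s - ‖z‖|) {x : ℂ}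
    (hx : ‖x‖ = s) : (d / (2 * (1 + 2 * τ))) ^ p ≤ ‖Q.eval x‖ := by
  set η := d / (2 * (1 + 2 * τ)) with hη
  have hτ1 : 1 ≤ τ := hs.trans hsτ
  have hη0 : 0 < η := by positivity
  have hη1 : η ≤ 1 := by
    rw [hη, div_le_one (by positivity)]
    linarith
  have hsp : Q.Splits := IsAlgClosed.splits Q
  have hcard : Multiset.card Q.roots ≤ p := (Polynomial.card_roots' Q).trans hp
  have hz : ∀ z ∈ Q.roots, η * (1 + ‖z‖) ≤ ‖x - z‖ := by
    intro z hz
    have h1 := hr z hz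
    have h2 : |s - ‖z‖| ≤ ‖x - z‖ := by
      have := abs_norm_sub_norm_le x z
      rwa [hx] at this
    rw [hη, div_mul_eq_mul_div, div_le_iff₀ (by positivity)]
    rcases le_or_gt ‖z‖ (2 * τ) with h3 | h3
    · have h4 : d ≤ ‖x - z‖ := h1.trans h2
      have : 0 ≤ ‖z‖ := norm_nonneg z
      nlinarith [norm_nonneg (x - z)]
    · have h4 : ‖z‖ - τ ≤ ‖x - z‖ := by
        have := norm_sub_norm_le z x
        rw [norm_sub_rev] at this
        linarith
      have h5 : ‖z‖ / 2 ≤ ‖x - z‖ := by linarith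
      nlinarith [norm_nonneg z]
  have h1 := prod_low Q.roots hη0.le hz
  have h2 : ‖Q.coeff n‖ ≤ ‖Q.leadingCoeff‖ * (Q.roots.map fun z => 1 + ‖z‖).prod := by
    have h3 := coeff_prod_le Q.roots n
    have h4 : Q.coeff n = Q.leadingCoeff * ((Q.roots.map fun z => (X - C z : ℂ[X])).prod).coeff n := by
      conv_lhs => rw [hsp.eq_prod_roots]
      rw [Polynomial.coeff_C_mul]
    rw [h4, norm_mul]
    exact mul_le_mul_of_nonneg_left h3 (norm_nonneg _)
  rw [hsp.eval_eq_prod_roots, norm_mul]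
  calc η ^ p ≤ η ^ (Multiset.card Q.roots) := pow_le_pow_of_le_one hη0.le hη1 hcard
    _ ≤ η ^ (Multiset.card Q.roots) * (‖Q.leadingCoeff‖ * (Q.roots.map fun z => 1 + ‖z‖).prod) :=
      le_mul_of_one_le_right (by positivity) (hn.trans h2)
    _ = ‖Q.leadingCoeff‖ * (η ^ (Multiset.card Q.roots) * (Q.roots.map fun z => 1 + ‖z‖).prod) := by
      ring
    _ ≤ _ := mul_le_mul_of_nonneg_left h1 (norm_nonneg _)

/-- a radius which stays away from all the zeros -/
theorem exists_radius {Q : ℕ → ℂ[X]} {p : ℕ} (hp : ∀ k, (Q k).natDegree ≤ p) {τ₁ τ lam : ℝ}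
    (hτ : τ₁ < τ) (hl0 : 0 < lam) (hl : lam < 1) :
    ∃ s ∈ Ioo τ₁ τ, ∃ ε₀ > 0, ε₀ ≤ 1 ∧ ∀ k, ∀ z ∈ (Q k).roots, ε₀ * lam ^ k ≤ |s - ‖z‖| := by
  set L := τ - τ₁ with hL
  have hL0 : 0 < L := by rw [hL]; linarith
  set ε₀ := min 1 (L * (1 - lam) / (4 * (p + 1))) with hε
  have h1l : 0 < 1 - lam := by linarith
  have hε0 : 0 < ε₀ := by positivity
  set bad : Set ℝ := ⋃ k : ℕ, ⋃ z ∈ (Q k).roots.toFinset, ball (‖z‖) (ε₀ * lam ^ k) with hbad
  have hvol : volume bad < volume (Ioo τ₁ τ) := by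
    rw [Real.volume_Ioo]
    have h1 : ∀ k, volume (⋃ z ∈ (Q k).roots.toFinset, ball (‖z‖) (ε₀ * lam ^ k)) ≤
        ENNReal.ofReal ((2 * p * ε₀) * lam ^ k) := by
      intro k
      refine (measure_biUnion_finset_le _ _).trans ?_
      have h2 : ∀ z ∈ (Q k).roots.toFinset, volume (ball ‖z‖ (ε₀ * lam ^ k)) =
          ENNReal.ofReal (2 * (ε₀ * lam ^ k)) := fun z _ => Real.volume_ball _ _
      rw [Finset.sum_congr rfl h2, Finset.sum_const, nsmul_eq_mul]
      have h3 : ((Q k).roots.toFinset.card : ℝ) ≤ p := by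
        have h4 := (Multiset.toFinset_card_le (Q k).roots).trans ((Polynomial.card_roots' (Q k)).trans (hp k))
        exact_mod_cast h4
      have h5 : (((Q k).roots.toFinset.card : ℕ) : ENNReal) =
          ENNReal.ofReal ((Q k).roots.toFinset.card : ℝ) := by
        rw [ENNReal.ofReal_natCast]
      rw [h5, ← ENNReal.ofReal_mul (by positivity)]
      apply ENNReal.ofReal_le_ofReal
      have : 0 ≤ ε₀ * lam ^ k := by positivity
      nlinarith
    have h6 : volume bad ≤ ENNReal.ofReal (2 * p * ε₀ * (1 - lam)⁻¹) := by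
      refine (measure_iUnion_le _).trans ((ENNReal.tsum_le_tsum h1).trans ?_)
      rw [← ENNReal.ofReal_tsum_of_nonneg (fun k => by positivity)
        ((summable_geometric_of_lt_one hl0.le hl).mul_left _), tsum_mul_left,
        tsum_geometric_of_lt_one hl0.le hl]
    refine h6.trans_lt ?_
    rw [ENNReal.ofReal_lt_ofReal_iff (by linarith)]
    have h7 : ε₀ ≤ L * (1 - lam) / (4 * (p + 1)) := min_le_right _ _
    rw [le_div_iff₀ (by positivity)] at h7
    rw [← div_eq_mul_inv, div_lt_iff₀ h1l]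
    have h8 : (0 : ℝ) ≤ p := Nat.cast_nonneg p
    have h9 : 0 < L * (1 - lam) := by positivity
    nlinarith
  have hex : ∃ s ∈ Ioo τ₁ τ, s ∉ bad := by
    by_contra hc
    push Not at hc
    exact absurd (measure_mono (μ := volume) (show Ioo τ₁ τ ⊆ bad from hc)) (not_le.2 hvol)
  obtain ⟨s, hs, hsb⟩ := hex
  refine ⟨s, hs, ε₀, hε0, min_le_left _ _, fun k z hz => ?_⟩
  by_contra hc
  push Not at hc
  apply hsb
  rw [hbad]
  simp only [mem_iUnion]
  refine ⟨k, z, Multiset.mem_toFinset.2 hz, ?_⟩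
  rw [mem_ball, Real.dist_eq]
  exact hc

end Vale.Agent.P097.H161.Mero
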