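import Vale.Agent.P097.H161.Mero.Minor
import Vale.Agent.P097.H161.Mero.Rad

/-! # P097 / H161: small minors imply meromorphic continuation (quantitative converse of
Hadamard's theorem, with free rows). -/

set_option linter.all false

open Polynomial Metric Set Filter Topology

namespace Vale.Agent.P097.H161.Mero

/-- the polynomial with coefficients `c` -/
noncomputable def Qp {p : ℕ} (c : Fin (p + 1) → ℂ) : ℂ[X] := ∑ j, C (c j) * X ^ (p - (j : ℕ))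

theorem Qp_coe {p : ℕ} (c : Fin (p + 1) → ℂ) :
    (Qp c : PowerSeries ℂ) = ∑ j, PowerSeries.C (c j) * PowerSeries.X ^ (p - (j : ℕ)) := by
  have h : (Qp c : PowerSeries ℂ) = Polynomial.coeToPowerSeries.ringHom (Qp c) := rfl
  rw [h, Qp, map_sum]
  refine Finset.sum_congr rfl fun j _ => ?_
  rw [map_mul, map_pow]
  simp

theorem Qp_coeff_mul {p : ℕ} (c : Fin (p + 1) → ℂ) (φ : PowerSeries ℂ) (n : ℕ) :
    PowerSeries.coeff n ((Qp c : PowerSeries ℂ) * φ) =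
      ∑ j : Fin (p + 1), c j * (if p - (j : ℕ) ≤ n then PowerSeries.coeff (n - (p - j)) φ else 0) := by
  rw [Qp_coe, Finset.sum_mul, map_sum]
  refine Finset.sum_congr rfl fun j _ => ?_
  rw [mul_assoc, PowerSeries.coeff_C_mul, PowerSeries.coeff_X_pow_mul']

theorem Qp_eval {p : ℕ} (c : Fin (p + 1) → ℂ) (x : ℂ) :
    (Qp c).eval x = ∑ j : Fin (p + 1), c j * x ^ (p - (j : ℕ)) := by
  simp [Qp, eval_finset_sum]

theorem Qp_coeff {p : ℕ} (c : Fin (p + 1) → ℂ) (j : Fin (p + 1)) : (Qp c).coeff (p - j) = c j := by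
  rw [Qp, finset_sum_coeff, Finset.sum_eq_single j]
  · simp
  · intro i _ hij
    rw [coeff_C_mul, coeff_X_pow, if_neg, mul_zero]
    intro h
    apply hij
    apply Fin.ext
    have := i.2
    have := j.2
    omega
  · intro h
    exact absurd (Finset.mem_univ j) h

theorem Qp_deg {p : ℕ} (c : Fin (p + 1) → ℂ) : (Qp c).natDegree ≤ p := by
  refine natDegree_sum_le_of_forall_le _ _ fun j _ => ?_
  refine (natDegree_C_mul_X_pow_le _ _).trans (Nat.sub_le _ _)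

theorem exists_norm_coord {p : ℕ} {c : Fin (p + 1) → ℂ} (hc : ‖c‖ = 1) : ∃ j, ‖c j‖ = 1 := by
  by_contra hcon
  push Not at hcon
  have h1 : ∀ j, ‖c j‖ < 1 := fun j => lt_of_le_of_ne (by rw [← hc]; exact norm_le_pi_norm c j) (hcon j)
  have := (pi_norm_lt_iff zero_lt_one).2 h1
  linarith

theorem Qp_ne {p : ℕ} {c : Fin (p + 1) → ℂ} (hc : ‖c‖ = 1) : Qp c ≠ 0 := by
  obtain ⟨j, hj⟩ := exists_norm_coord hc
  intro h
  have := Qp_coeff c j
  rw [h, coeff_zero] at this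
  rw [← this, norm_zero] at hj
  exact zero_ne_one hj

theorem Qp_diff_eval {p : ℕ} (c c' : Fin (p + 1) → ℂ) {x : ℂ} {τ : ℝ} (hx : ‖x‖ ≤ τ) (hτ : 1 ≤ τ) :
    ‖(Qp c).eval x - (Qp c').eval x‖ ≤ (p + 1) * τ ^ p * ‖c - c'‖ := by
  rw [Qp_eval, Qp_eval, ← Finset.sum_sub_distrib]
  refine (norm_sum_le _ _).trans ?_
  have h : ∀ j ∈ (Finset.univ : Finset (Fin (p + 1))),
      ‖c j * x ^ (p - (j : ℕ)) - c' j * x ^ (p - (j : ℕ))‖ ≤ τ ^ p * ‖c - c'‖ := by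
    intro j _
    rw [← sub_mul, norm_mul, norm_pow, mul_comm]
    have h1 : ‖c j - c' j‖ ≤ ‖c - c'‖ := norm_le_pi_norm (c - c') j
    have h2 : ‖x‖ ^ (p - (j : ℕ)) ≤ τ ^ p :=
      (pow_le_pow_left₀ (norm_nonneg _) hx _).trans (pow_le_pow_right₀ hτ (Nat.sub_le _ _))
    gcongr
  refine (Finset.sum_le_sum h).trans ?_
  rw [Finset.sum_const, Finset.card_univ, Fintype.card_fin, nsmul_eq_mul]
  push_cast
  rw [mul_assoc]

theorem Qp_eval_le {p : ℕ} {c : Fin (p + 1) → ℂ} (hc : ‖c‖ ≤ 1) {x : ℂ} {τ : ℝ} (hx : ‖x‖ ≤ τ)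
    (hτ : 1 ≤ τ) : ‖(Qp c).eval x‖ ≤ (p + 1) * τ ^ p := by
  have h := Qp_diff_eval c 0 hx hτ
  have h0 : (Qp (0 : Fin (p + 1) → ℂ)).eval x = 0 := by simp [Qp_eval]
  rw [h0, sub_zero, sub_zero] at h
  refine h.trans ?_
  have : 0 ≤ ((p : ℝ) + 1) * τ ^ p := by positivity
  nlinarith

theorem hasSum_shift {a : ℕ → ℂ} {x y : ℂ} (h : HasSum (fun n => a n * x ^ n) y) (m : ℕ) :
    HasSum (fun n => (if m ≤ n then a (n - m) else 0) * x ^ n) (x ^ m * y) := by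
  rw [← hasSum_nat_add_iff' m]
  have h1 : ∑ i ∈ Finset.range m, (if m ≤ i then a (i - m) else 0) * x ^ i = 0 := by
    refine Finset.sum_eq_zero fun i hi => ?_
    rw [Finset.mem_range] at hi
    rw [if_neg (by omega), zero_mul]
  rw [h1, sub_zero]
  have h2 := h.mul_left (x ^ m)
  refine h2.congr_fun fun n => ?_
  rw [if_pos (Nat.le_add_left m n), Nat.add_sub_cancel, pow_add]
  ring

theorem hasSum_Qp {p : ℕ} (c : Fin (p + 1) → ℂ) {a : ℕ → ℂ} {x y : ℂ}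
    (h : HasSum (fun n => a n * x ^ n) y) :
    HasSum (fun n => PowerSeries.coeff n ((Qp c : PowerSeries ℂ) * PowerSeries.mk a) * x ^ n)
      ((Qp c).eval x * y) := by
  have h1 := hasSum_sum (f := fun (j : Fin (p + 1)) n =>
    c j * ((if p - (j : ℕ) ≤ n then a (n - (p - j)) else 0) * x ^ n))
    (a := fun j => c j * (x ^ (p - (j : ℕ)) * y)) (s := Finset.univ)
    fun j _ => (hasSum_shift h (p - j)).mul_left (c j)
  have e1 : ∑ j : Fin (p + 1), c j * (x ^ (p - (j : ℕ)) * y) = (Qp c).eval x * y := by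
    rw [Qp_eval, Finset.sum_mul]
    exact Finset.sum_congr rfl fun j _ => by ring
  rw [e1] at h1
  have e2 : (fun n => PowerSeries.coeff n ((Qp c : PowerSeries ℂ) * PowerSeries.mk a) * x ^ n) =
      fun n => ∑ j : Fin (p + 1), c j * ((if p - (j : ℕ) ≤ n then a (n - (p - j)) else 0) * x ^ n) := by
    funext n
    rw [Qp_coeff_mul, Finset.sum_mul]
    refine Finset.sum_congr rfl fun j _ => ?_
    simp only [PowerSeries.coeff_mk]
    ring
  rw [e2]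
  exact h1

theorem hasSum_poly (P : ℂ[X]) (x : ℂ) : HasSum (fun n => P.coeff n * x ^ n) (P.eval x) := by
  rw [eval_eq_sum, Polynomial.sum]
  refine hasSum_sum_of_ne_finset_zero fun n hn => ?_
  rw [notMem_support_iff.1 hn, zero_mul]

/-- data of the approximants -/
structure App (a : ℕ → ℂ) (p : ℕ) (C₁ θ : ℝ) (c : ℕ → Fin (p + 1) → ℂ) : Prop where
  nc : ∀ k, ‖c k‖ = 1
  sm : ∀ k i, ‖∑ j : Fin (p + 1), c k j * a (k + i + j)‖ ≤ 2 * (C₁ * θ ^ k)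

theorem exists_app {a : ℕ → ℂ} {p : ℕ} {A C₁ θ : ℝ} (hA : ∀ n, ‖a n‖ ≤ A) (hC : 0 < C₁) (hθ : 0 < θ)
    (hD : ∀ k I, ‖mn a p k I‖ ≤ (C₁ * θ ^ k) ^ (p + 1)) : ∃ c, App a p C₁ θ c := by
  have h : ∀ k, ∃ c : Fin (p + 1) → ℂ, ‖c‖ = 1 ∧
      ∀ i, ‖∑ j : Fin (p + 1), c j * a (k + i + j)‖ ≤ 2 * (C₁ * θ ^ k) := by
    intro k
    exact exists_comb (B := fun i j => a (k + i + j)) (A := A) (fun i j => hA _) (by positivity)
      (fun I => hD k I)
  choose c hc using h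
  exact ⟨c, fun k => (hc k).1, fun k => (hc k).2⟩

/-- the product -/
noncomputable def Gk {p : ℕ} (a : ℕ → ℂ) (c : Fin (p + 1) → ℂ) : PowerSeries ℂ :=
  (Qp c : PowerSeries ℂ) * PowerSeries.mk a

/-- the numerator -/
noncomputable def Pk {p : ℕ} (a : ℕ → ℂ) (c : Fin (p + 1) → ℂ) (k : ℕ) : ℂ[X] :=
  PowerSeries.trunc (k + p) (Gk a c)

theorem Pk_coeff {p : ℕ} (a : ℕ → ℂ) (c : Fin (p + 1) → ℂ) (k n : ℕ) :
    (Pk a c k).coeff n = if n < k + p then PowerSeries.coeff n (Gk a c) else 0 :=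
  PowerSeries.coeff_trunc _ _ _

/-- the tail -/
noncomputable def Tk {p : ℕ} (a : ℕ → ℂ) (c : Fin (p + 1) → ℂ) (k : ℕ) : PowerSeries ℂ :=
  Gk a c - (Pk a c k : PowerSeries ℂ)

section

variable {a : ℕ → ℂ} {p : ℕ} {C₁ θ : ℝ} {c : ℕ → Fin (p + 1) → ℂ}

theorem Tk_coeff (H : App a p C₁ θ c) (hC : 0 < C₁) (hθ : 0 < θ) (k n : ℕ) :
    ‖PowerSeries.coeff n (Tk a (c k) k)‖ ≤ 2 * (C₁ * θ ^ k) := by
  have h0 : PowerSeries.coeff n (Tk a (c k) k) =
      if n < k + p then 0 else PowerSeries.coeff n (Gk a (c k)) := by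
    rw [Tk, map_sub, Polynomial.coeff_coe, Pk_coeff]
    split_ifs <;> simp
  rw [h0]
  split_ifs with h
  · rw [norm_zero]; positivity
  · push Not at h
    rw [Gk, Qp_coeff_mul]
    have h1 := H.sm k (n - (k + p))
    refine le_trans (le_of_eq ?_) h1
    congr 1
    refine Finset.sum_congr rfl fun j _ => ?_
    have hj := j.2
    rw [if_pos (by omega), PowerSeries.coeff_mk]
    congr 2
    omega

theorem norm_coeff_Qp_mul {c : Fin (p + 1) → ℂ} (hc : ‖c‖ ≤ 1) {φ : PowerSeries ℂ} {t : ℝ}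
    (ht : 0 ≤ t) (hφ : ∀ n, ‖PowerSeries.coeff n φ‖ ≤ t) (n : ℕ) :
    ‖PowerSeries.coeff n ((Qp c : PowerSeries ℂ) * φ)‖ ≤ (p + 1) * t := by
  rw [Qp_coeff_mul]
  refine (norm_sum_le _ _).trans ?_
  have h : ∀ j ∈ (Finset.univ : Finset (Fin (p + 1))),
      ‖c j * (if p - (j : ℕ) ≤ n then PowerSeries.coeff (n - (p - j)) φ else 0)‖ ≤ t := by
    intro j _
    rw [norm_mul]
    have h1 : ‖c j‖ ≤ 1 := (norm_le_pi_norm c j).trans hc
    have h2 : ‖(if p - (j : ℕ) ≤ n then PowerSeries.coeff (n - (p - j)) φ else 0)‖ ≤ t := by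
      split_ifs
      · exact hφ _
      · rw [norm_zero]; exact ht
    calc _ ≤ 1 * t := mul_le_mul h1 h2 (norm_nonneg _) zero_le_one
      _ = t := one_mul t
  refine (Finset.sum_le_sum h).trans ?_
  rw [Finset.sum_const, Finset.card_univ, Fintype.card_fin, nsmul_eq_mul]
  push_cast
  rfl

/-- the cross difference -/
noncomputable def Wk (a : ℕ → ℂ) (c : ℕ → Fin (p + 1) → ℂ) (k : ℕ) : ℂ[X] :=
  Pk a (c (k + 1)) (k + 1) * Qp (c k) - Pk a (c k) k * Qp (c (k + 1))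

theorem Wk_coe (k : ℕ) : (Wk a c k : PowerSeries ℂ) =
    (Qp (c (k + 1)) : PowerSeries ℂ) * Tk a (c k) k -
      (Qp (c k) : PowerSeries ℂ) * Tk a (c (k + 1)) (k + 1) := by
  have h : (Wk a c k : PowerSeries ℂ) = (Pk a (c (k + 1)) (k + 1) : PowerSeries ℂ) * (Qp (c k) : PowerSeries ℂ) -
      (Pk a (c k) k : PowerSeries ℂ) * (Qp (c (k + 1)) : PowerSeries ℂ) := by
    rw [Wk]
    push_cast
    rfl
  rw [h, Tk, Tk, Gk, Gk]
  ring

theorem Wk_coeff (H : App a p C₁ θ c) (hC : 0 < C₁) (hθ : 0 < θ) (hθ1 : θ ≤ 1) (k n : ℕ) :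
    ‖(Wk a c k).coeff n‖ ≤ 4 * (p + 1) * (C₁ * θ ^ k) := by
  rw [← Polynomial.coeff_coe, Wk_coe, map_sub]
  have h1 := norm_coeff_Qp_mul (c := c (k + 1)) (H.nc _).le (by positivity) (Tk_coeff H hC hθ k) n
  have h2 := norm_coeff_Qp_mul (c := c k) (H.nc _).le (by positivity) (Tk_coeff H hC hθ (k + 1)) n
  refine (norm_sub_le _ _).trans ((add_le_add h1 h2).trans ?_)
  have h3 : C₁ * θ ^ (k + 1) ≤ C₁ * θ ^ k := by
    apply mul_le_mul_of_nonneg_left _ hC.le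
    exact pow_le_pow_of_le_one hθ.le hθ1 (Nat.le_succ k)
  have h4 : (0 : ℝ) ≤ p := Nat.cast_nonneg p
  nlinarith

theorem Wk_deg (k : ℕ) : (Wk a c k).natDegree < k + 2 * p + 2 := by
  have h1 : ∀ k, (Pk a (c k) k).natDegree ≤ k + p := by
    intro k
    rw [natDegree_le_iff_coeff_eq_zero]
    intro n hn
    rw [Pk_coeff, if_neg (by omega)]
  have h2 : (Wk a c k).natDegree ≤ k + 1 + p + p := by
    refine (natDegree_sub_le _ _).trans (max_le ?_ ?_)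
    · exact natDegree_mul_le.trans (add_le_add (h1 _) (Qp_deg _))
    · refine natDegree_mul_le.trans ((add_le_add (h1 _) (Qp_deg _)).trans ?_)
      omega
  omega

theorem Wk_eval (H : App a p C₁ θ c) (hC : 0 < C₁) (hθ : 0 < θ) (hθ1 : θ ≤ 1) {τ : ℝ} (hτ : 1 < τ)
    (k : ℕ) {x : ℂ} (hx : ‖x‖ ≤ τ) :
    ‖(Wk a c k).eval x‖ ≤ 4 * (p + 1) * C₁ * τ ^ (2 * p + 2) / (τ - 1) * (θ * τ) ^ k := by
  rw [eval_eq_sum_range' (Wk_deg k)]
  refine (norm_sum_le _ _).trans ?_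
  have h : ∀ n ∈ Finset.range (k + 2 * p + 2), ‖(Wk a c k).coeff n * x ^ n‖ ≤
      4 * (p + 1) * (C₁ * θ ^ k) * τ ^ n := by
    intro n _
    rw [norm_mul, norm_pow]
    have h1 := Wk_coeff H hC hθ hθ1 k n
    have h2 : ‖x‖ ^ n ≤ τ ^ n := pow_le_pow_left₀ (norm_nonneg _) hx _
    exact mul_le_mul h1 h2 (by positivity) (by positivity)
  refine (Finset.sum_le_sum h).trans ?_
  rw [← Finset.mul_sum, geom_sum_eq hτ.ne']
  have h3 : 0 < τ - 1 := by linarith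
  have h4 : (τ ^ (k + 2 * p + 2) - 1) / (τ - 1) ≤ τ ^ (k + 2 * p + 2) / (τ - 1) := by
    gcongr
    linarith
  refine (mul_le_mul_of_nonneg_left h4 (by positivity)).trans (le_of_eq ?_)
  have h5 : τ ^ (k + 2 * p + 2) = τ ^ k * τ ^ (2 * p + 2) := by rw [← pow_add]; congr 1
  rw [h5, mul_pow]
  ring

theorem tail_bd (H : App a p C₁ θ c) (hC : 0 < C₁) (hθ : 0 < θ) {x y : ℂ} (hx : ‖x‖ < 1)
    (h : HasSum (fun n => a n * x ^ n) y) (k : ℕ) :
    ‖(Qp (c k)).eval x * y - (Pk a (c k) k).eval x‖ ≤ 2 * C₁ / (1 - ‖x‖) * θ ^ k := by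
  have h1 := (hasSum_Qp (c k) h).sub (hasSum_poly (Pk a (c k) k) x)
  have h2 := (hasSum_geometric_of_lt_one (norm_nonneg x) hx).mul_left (2 * (C₁ * θ ^ k))
  refine (h1.norm_le_of_bounded h2 fun n => ?_).trans (le_of_eq ?_)
  · rw [← sub_mul, norm_mul, norm_pow]
    have h3 := Tk_coeff H hC hθ k n
    rw [Tk, map_sub, Polynomial.coeff_coe, Gk] at h3
    exact mul_le_mul_of_nonneg_right h3 (by positivity)
  · field_simp

end

end Vale.Agent.P097.H161.Mero
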