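import Vale.Agent.P097.H161.Mero.HC

/-! # P097 / H161: small minors imply meromorphic continuation, conclusion. -/

set_option linter.all false

open Polynomial Metric Set Filter Topology

namespace Vale.Agent.P097.H161.Mero

theorem max_circle {P Q : ℂ[X]} {s e : ℝ} (hs : 0 < s)
    (h : ∀ x : ℂ, ‖x‖ = s → ‖P.eval x - Q.eval x‖ ≤ e) {x : ℂ} (hx : x ∈ closedBall (0 : ℂ) s) :
    ‖P.eval x - Q.eval x‖ ≤ e := by
  have hd : Differentiable ℂ fun x : ℂ => P.eval x - Q.eval x :=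
    P.differentiable.sub Q.differentiable
  have hcl : DiffContOnCl ℂ (fun x : ℂ => P.eval x - Q.eval x) (ball 0 s) := hd.diffContOnCl
  refine Complex.norm_le_of_forall_mem_frontier_norm_le isBounded_ball hcl ?_ ?_
  · intro z hz
    rw [frontier_ball _ hs.ne', mem_sphere_zero_iff_norm] at hz
    exact h z hz
  · rwa [closure_ball _ hs.ne']

theorem hc {a : ℕ → ℂ} {p : ℕ} {A C₁ θ τ τ₁ : ℝ} {f : ℂ → ℂ} (hA : ∀ n, ‖a n‖ ≤ A) (hC : 0 < C₁)
    (hθ : 0 < θ) (hτ₁ : 1 ≤ τ₁) (hτ : τ₁ < τ) (hθτ : θ * τ < 1)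
    (hD : ∀ k I, ‖mn a p k I‖ ≤ (C₁ * θ ^ k) ^ (p + 1))
    (hf : ∀ x : ℂ, ‖x‖ < 1 → HasSum (fun n => a n * x ^ n) (f x)) :
    ∃ (q : ℂ[X]) (F : ℂ → ℂ), q ≠ 0 ∧ DifferentiableOn ℂ F (ball 0 τ₁) ∧
      ∀ x : ℂ, ‖x‖ < 1 → F x = q.eval x * f x := by
  have hτ1 : 1 < τ := lt_of_le_of_lt hτ₁ hτ
  have hθ1 : θ < 1 := by nlinarith
  have hθτ0 : 0 < θ * τ := by positivity
  obtain ⟨c, H⟩ := exists_app hA hC hθ hD
  -- the rate
  obtain ⟨lam, hl0, hl1, hlp⟩ : ∃ lam : ℝ, 0 < lam ∧ lam < 1 ∧ lam ^ (2 * p + 1) = θ * τ := by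
    refine ⟨(θ * τ) ^ ((2 * p + 1 : ℕ) : ℝ)⁻¹, Real.rpow_pos_of_pos hθτ0 _,
      Real.rpow_lt_one hθτ0.le hθτ (by positivity), ?_⟩
    exact Real.rpow_inv_natCast_pow hθτ0.le (by omega)
  obtain ⟨s, hs, ε₀, hε0, hε1, hrad⟩ := exists_radius (Q := fun k => Qp (c k))
    (fun k => Qp_deg (c k)) hτ hl0 hl1
  have hs1 : 1 < s := lt_of_le_of_lt hτ₁ hs.1
  have hs0 : 0 < s := by linarith
  have hsτ : s ≤ τ := hs.2.le
  set K := ε₀ / (2 * (1 + 2 * τ)) with hK
  have hK0 : 0 < K := by positivity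
  have hlow : ∀ k, ∀ x : ℂ, ‖x‖ = s → (K * lam ^ k) ^ p ≤ ‖(Qp (c k)).eval x‖ := by
    intro k x hx
    obtain ⟨j, hj⟩ := exists_norm_coord (H.nc k)
    have h1 := eval_low (Q := Qp (c k)) (p := p) (n := p - j) (Qp_deg _)
      (by rw [Qp_coeff, hj]) hs1.le hsτ (d := ε₀ * lam ^ k) (by positivity)
      (mul_le_one₀ hε1 (by positivity) (pow_le_one₀ hl0.le hl1.le)) (hrad k) hx
    have e : K * lam ^ k = ε₀ * lam ^ k / (2 * (1 + 2 * τ)) := by rw [hK]; ring
    rw [e]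
    exact h1
  have hpos : ∀ k, ∀ x : ℂ, ‖x‖ = s → 0 < ‖(Qp (c k)).eval x‖ := fun k x hx =>
    lt_of_lt_of_le (by positivity) (hlow k x hx)
  set u : ℕ → ℂ → ℂ := fun k x => (Pk a (c k) k).eval x / (Qp (c k)).eval x with hu
  set C₂ := 4 * (p + 1) * C₁ * τ ^ (2 * p + 2) / (τ - 1) with hC₂
  have hC₂0 : 0 < C₂ := by
    have : 0 < τ - 1 := by linarith
    positivity
  set C₃ := C₂ / (K ^ (2 * p) * lam ^ p) with hC₃
  have hC₃0 : 0 < C₃ := by positivity
  have hstep : ∀ x : ℂ, ‖x‖ = s → ∀ k, dist (u k x) (u (k + 1) x) ≤ C₃ * lam ^ k := by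
    intro x hx k
    have q1 : (Qp (c k)).eval x ≠ 0 := norm_pos_iff.1 (hpos k x hx)
    have q2 : (Qp (c (k + 1))).eval x ≠ 0 := norm_pos_iff.1 (hpos (k + 1) x hx)
    have e : u k x - u (k + 1) x = -((Wk a c k).eval x / ((Qp (c k)).eval x * (Qp (c (k + 1))).eval x)) := by
      simp only [hu, Wk, eval_sub, eval_mul]
      field_simp
      ring
    rw [dist_eq_norm, e, norm_neg, norm_div, norm_mul]
    have h1 := Wk_eval H hC hθ hθ1.le hτ1 k (x := x) (by rw [hx]; exact hsτ)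
    have h2 := hlow k x hx
    have h3 := hlow (k + 1) x hx
    rw [div_le_iff₀ (mul_pos (hpos k x hx) (hpos (k + 1) x hx))]
    have h4 : (K * lam ^ k) ^ p * (K * lam ^ (k + 1)) ^ p ≤
        ‖(Qp (c k)).eval x‖ * ‖(Qp (c (k + 1))).eval x‖ :=
      mul_le_mul h2 h3 (by positivity) (norm_nonneg _)
    refine h1.trans (le_trans (le_of_eq ?_) (mul_le_mul_of_nonneg_left h4 (by positivity)))
    rw [hC₃, ← hlp]
    have e2 : (K * lam ^ k) ^ p * (K * lam ^ (k + 1)) ^ p = K ^ (2 * p) * lam ^ p * (lam ^ (2 * p)) ^ k := by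
      rw [mul_pow, mul_pow, ← pow_mul, ← pow_mul, ← pow_mul]
      ring
    have e3 : (lam ^ (2 * p + 1)) ^ k = lam ^ k * (lam ^ (2 * p)) ^ k := by
      rw [← pow_mul, ← pow_mul, ← pow_add]
      congr 1
      ring
    rw [e2, e3]
    field_simp
    exact hC₂.symm
  have hex : ∀ x : ℂ, ∃ g, ‖x‖ = s → Tendsto (fun k => u k x) atTop (𝓝 g) := by
    intro x
    by_cases hx : ‖x‖ = s
    · obtain ⟨g, hg⟩ := cauchySeq_tendsto_of_complete
        (cauchySeq_of_le_geometric lam C₃ hl1 (hstep x hx))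
      exact ⟨g, fun _ => hg⟩
    · exact ⟨0, fun h => absurd h hx⟩
  choose g hg using hex
  have hug : ∀ x : ℂ, ‖x‖ = s → ∀ k, ‖u k x - g x‖ ≤ C₃ / (1 - lam) * lam ^ k := by
    intro x hx k
    have h1 := dist_le_of_le_geometric_of_tendsto lam C₃ hl1 (hstep x hx) (hg x hx) k
    rw [dist_eq_norm] at h1
    refine h1.trans (le_of_eq ?_)
    ring
  -- bound of `g`
  obtain ⟨M, hM⟩ : ∃ M, ∀ x : ℂ, ‖x‖ = s → ‖g x‖ ≤ M := by
    obtain ⟨M₀, hM₀⟩ := (isCompact_sphere (0 : ℂ) s).exists_bound_of_continuousOn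
      (Pk a (c 0) 0).continuous.continuousOn
    refine ⟨M₀ / (K * lam ^ 0) ^ p + C₃ / (1 - lam) * lam ^ 0, fun x hx => ?_⟩
    have h1 := hug x hx 0
    have h2 : ‖u 0 x‖ ≤ M₀ / (K * lam ^ 0) ^ p := by
      simp only [hu]
      rw [norm_div]
      have h3 := hM₀ x (by rw [mem_sphere_zero_iff_norm]; exact hx)
      exact div_le_div₀ ((norm_nonneg _).trans h3) h3 (by positivity) (hlow 0 x hx)
    have h4 : g x = u 0 x - (u 0 x - g x) := by ring
    rw [h4]
    exact (norm_sub_le _ _).trans (add_le_add h2 h1)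
  -- subsequence
  obtain ⟨c', -, φ, hφ, hc'⟩ := (isCompact_sphere (0 : Fin (p + 1) → ℂ) 1).tendsto_subseq
    (fun k => (by rw [mem_sphere_zero_iff_norm]; exact H.nc k : c k ∈ sphere (0 : Fin (p + 1) → ℂ) 1))
  have hc'1 : ‖c'‖ = 1 := by
    refine tendsto_nhds_unique hc'.norm ?_
    refine tendsto_const_nhds.congr fun k => ?_
    exact (H.nc (φ k)).symm
  set e : ℕ → ℝ := fun j => (p + 1) * τ ^ p * (‖c (φ j) - c'‖ * M + C₃ / (1 - lam) * lam ^ (φ j))
    with he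
  have he0 : Tendsto e atTop (𝓝 0) := by
    have h1 : Tendsto (fun j => ‖c (φ j) - c'‖) atTop (𝓝 0) := by
      have := (hc'.sub_const c').norm
      simpa using this
    have h2 : Tendsto (fun j => lam ^ (φ j)) atTop (𝓝 0) :=
      (tendsto_pow_atTop_nhds_zero_of_lt_one hl0.le hl1).comp hφ.tendsto_atTop
    have h3 := ((h1.mul_const M).add (h2.const_mul (C₃ / (1 - lam)))).const_mul
      ((p + 1) * τ ^ p : ℝ)
    simpa using h3
  have hM0 : 0 ≤ M := by
    have := hM (s : ℂ) (by rw [Complex.norm_real, Real.norm_eq_abs, abs_of_pos hs0])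
    exact (norm_nonneg _).trans this
  have hPg : ∀ j, ∀ x : ℂ, ‖x‖ = s →
      ‖(Pk a (c (φ j)) (φ j)).eval x - (Qp c').eval x * g x‖ ≤ e j := by
    intro j x hx
    have q1 : (Qp (c (φ j))).eval x ≠ 0 := norm_pos_iff.1 (hpos _ x hx)
    have e1 : (Pk a (c (φ j)) (φ j)).eval x = (Qp (c (φ j))).eval x * u (φ j) x := by
      simp only [hu]
      field_simp
    have e2 : (Pk a (c (φ j)) (φ j)).eval x - (Qp c').eval x * g x =
        ((Qp (c (φ j))).eval x - (Qp c').eval x) * g x +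
          (Qp (c (φ j))).eval x * (u (φ j) x - g x) := by
      rw [e1]; ring
    rw [e2]
    refine (norm_add_le _ _).trans ?_
    rw [norm_mul, norm_mul]
    have h1 := Qp_diff_eval (c (φ j)) c' (x := x) (by rw [hx]; exact hsτ) hτ1.le
    have h2 := Qp_eval_le (c := c (φ j)) (H.nc _).le (x := x) (by rw [hx]; exact hsτ) hτ1.le
    have h3 := hug x hx (φ j)
    have h4 := hM x hx
    have h5 : 0 ≤ C₃ / (1 - lam) * lam ^ (φ j) := (norm_nonneg _).trans h3
    calc ‖(Qp (c (φ j))).eval x - (Qp c').eval x‖ * ‖g x‖ +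
          ‖(Qp (c (φ j))).eval x‖ * ‖u (φ j) x - g x‖ ≤
        ((p + 1) * τ ^ p * ‖c (φ j) - c'‖) * M +
          ((p + 1) * τ ^ p) * (C₃ / (1 - lam) * lam ^ (φ j)) := by
          refine add_le_add (mul_le_mul h1 h4 (norm_nonneg _) (by positivity))
            (mul_le_mul h2 h3 (norm_nonneg _) (by positivity))
      _ = e j := by simp only [he]; ring
  have hdist : ∀ i j, ∀ x ∈ closedBall (0 : ℂ) s,
      ‖(Pk a (c (φ i)) (φ i)).eval x - (Pk a (c (φ j)) (φ j)).eval x‖ ≤ e i + e j := by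
    intro i j x hx
    refine max_circle hs0 (fun z hz => ?_) hx
    have h1 := hPg i z hz
    have h2 := hPg j z hz
    have e3 : (Pk a (c (φ i)) (φ i)).eval z - (Pk a (c (φ j)) (φ j)).eval z =
        ((Pk a (c (φ i)) (φ i)).eval z - (Qp c').eval z * g z) -
          ((Pk a (c (φ j)) (φ j)).eval z - (Qp c').eval z * g z) := by ring
    rw [e3]
    exact (norm_sub_le _ _).trans (add_le_add h1 h2)
  have hunif : UniformCauchySeqOn (fun j x => (Pk a (c (φ j)) (φ j)).eval x) atTop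
      (closedBall (0 : ℂ) s) := by
    rw [Metric.uniformCauchySeqOn_iff]
    intro ε hε
    obtain ⟨N, hN⟩ := (he0.eventually_lt_const (half_pos hε)).exists_forall_of_atTop
    refine ⟨N, fun m hm n hn x hx => ?_⟩
    rw [dist_eq_norm]
    exact (hdist m n x hx).trans_lt (by linarith [hN m hm, hN n hn])
  have hlim : ∀ x : ℂ, ∃ F, x ∈ closedBall (0 : ℂ) s →
      Tendsto (fun j => (Pk a (c (φ j)) (φ j)).eval x) atTop (𝓝 F) := by
    intro x
    by_cases hx : x ∈ closedBall (0 : ℂ) s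
    · obtain ⟨F, hF⟩ := cauchySeq_tendsto_of_complete (hunif.cauchySeq hx)
      exact ⟨F, fun _ => hF⟩
    · exact ⟨0, fun h => absurd h hx⟩
  choose F hF using hlim
  have hFu := hunif.tendstoUniformlyOn_of_tendsto hF
  have hFd : DifferentiableOn ℂ F (ball 0 s) := by
    have h1 := (hFu.mono ball_subset_closedBall).tendstoLocallyUniformlyOn
    refine h1.differentiableOn (Eventually.of_forall fun j => ?_) isOpen_ball
    exact (Pk a (c (φ j)) (φ j)).differentiable.differentiableOn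
  refine ⟨Qp c', F, Qp_ne hc'1, hFd.mono (ball_subset_ball hs.1.le), fun x hx => ?_⟩
  have hxs : x ∈ closedBall (0 : ℂ) s := by
    rw [mem_closedBall_zero_iff]; linarith
  refine tendsto_nhds_unique (hF x hxs) ?_
  have h1 : Tendsto (fun j => (Qp (c (φ j))).eval x) atTop (𝓝 ((Qp c').eval x)) := by
    rw [tendsto_iff_norm_sub_tendsto_zero]
    have h2 : Tendsto (fun j => (p + 1) * τ ^ p * ‖c (φ j) - c'‖) atTop (𝓝 0) := by
      have h3 : Tendsto (fun j => ‖c (φ j) - c'‖) atTop (𝓝 0) := by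
        have := (hc'.sub_const c').norm
        simpa using this
      simpa using h3.const_mul ((p + 1) * τ ^ p : ℝ)
    exact squeeze_zero (fun _ => norm_nonneg _)
      (fun j => Qp_diff_eval (c (φ j)) c' (x := x) (by linarith) hτ1.le) h2
  have h4 : Tendsto (fun j => (Qp (c (φ j))).eval x * f x - (Pk a (c (φ j)) (φ j)).eval x) atTop
      (𝓝 0) := by
    rw [tendsto_zero_iff_norm_tendsto_zero]
    have h5 : Tendsto (fun j => 2 * C₁ / (1 - ‖x‖) * θ ^ (φ j)) atTop (𝓝 0) := by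
      have := ((tendsto_pow_atTop_nhds_zero_of_lt_one hθ.le hθ1).comp hφ.tendsto_atTop).const_mul
        (2 * C₁ / (1 - ‖x‖))
      simpa using this
    exact squeeze_zero (fun _ => norm_nonneg _) (fun j => tail_bd H hC hθ hx (hf x hx) (φ j)) h5
  have h6 := (h1.mul_const (f x)).sub h4
  rw [sub_zero] at h6
  refine h6.congr fun j => ?_
  ring

end Vale.Agent.P097.H161.Mero
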