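import Vale.Agent.P097.H161.Mero.Sec

/-! # P097 / H161: MJ, the sector extension for quotients of holomorphic functions (disc form). -/

set_option linter.all false

open Complex Metric Set Filter Topology

namespace Vale.Agent.P097.H161.Mero

/-- bound of the minors from a bounded denominator -/
theorem mn_of_den {f : ℂ → ℂ} {N p : ℕ} (hN : N ≤ p + 1) {A B T : ℝ} (hA1 : 1 ≤ A)
    (hA : ∀ x : ℂ, ‖x‖ = 1 → ‖f x‖ ≤ A) (hB1 : 1 ≤ B) (hT : 1 ≤ T) (h : Den f N B T) (k : ℕ)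
    (I : Fin (p + 1) → ℕ) :
    ‖mn (cf f) p k I‖ ≤ (p + 1).factorial * ((A * B) ^ (p + 1) / (T ^ (p + 1 - N)) ^ k) := by
  obtain ⟨q, b, h0, h1, h2⟩ := h
  exact minor_bd hN h0 h1 hA1 (fun n => cf_bd hA n) hB1 h2 hT k I

/-- normalised form -/
theorem mj_norm {P Q : ℂ × ℂ → ℂ} {Ω : Set (ℂ × ℂ)} (hΩ : IsOpen Ω) (hP : DifferentiableOn ℂ P Ω)
    (hQ : DifferentiableOn ℂ Q Ω) {R ρ c r₀ r₁ : ℝ} (hR : 1 < R) (hρ : 0 < ρ) (hc : 0 < c)
    (hr₀ : 0 < r₀) (hr₁ : 0 < r₁)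
    (hQ1 : ∀ w : ℂ, ‖w‖ < r₁ → ∀ x : ℂ, ‖x‖ ≤ 1 → (x, w) ∈ Ω ∧ Q (x, w) ≠ 0)
    (h1 : ∀ η > 0, ∃ r > 0, ∀ x w : ℂ, ‖x‖ < R - η → ‖w‖ < r → (x, w) ∈ Ω)
    (h2 : ∀ x w : ℂ, ‖x‖ < R + ρ → 0 < ‖w‖ → ‖w‖ < r₀ → |w.im| < c * |w.re| → (x, w) ∈ Ω) :
    ∃ R' > R, ∃ (q : Polynomial ℂ) (F : ℂ → ℂ), q ≠ 0 ∧ DifferentiableOn ℂ F (ball 0 R') ∧
      ∀ x : ℂ, ‖x‖ < 1 → F x * Q (x, 0) = q.eval x * P (x, 0) := by
  obtain ⟨t, htne, ht1, ht2⟩ := exists_rot (half_pos hc)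
  set m := t.card with hm
  have hm0 : 0 < m := Finset.card_pos.2 htne
  set T₂ := R + ρ / 3 with hT₂
  set T₂' := R + ρ / 2 with hT₂'
  have hR0 : 0 < R := by linarith
  -- choice of y
  obtain ⟨y, hy0, hy1, hy2⟩ : ∃ y > 0, y < R - 1 ∧ (R + y) ^ m < T₂ * (R - y) ^ (m - 1) := by
    have hcont : Continuous fun y : ℝ => T₂ * (R - y) ^ (m - 1) - (R + y) ^ m := by fun_prop
    have h3 : 0 < T₂ * (R - 0) ^ (m - 1) - (R + 0) ^ m := by
      rw [sub_zero, add_zero]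
      have e : R ^ m = R * R ^ (m - 1) := by rw [← pow_succ']; congr 1; omega
      rw [e, ← sub_mul]
      exact mul_pos (by rw [hT₂]; linarith) (by positivity)
    have h4 := (hcont.tendsto 0).eventually_const_lt h3
    obtain ⟨ε, hε, h5⟩ := Metric.eventually_nhds_iff.1 h4
    refine ⟨min (ε / 2) ((R - 1) / 2), by
      have : 0 < R - 1 := by linarith
      positivity, ?_, ?_⟩
    · refine (min_le_right _ _).trans_lt ?_
      linarith
    · have h6 := h5 (y := min (ε / 2) ((R - 1) / 2)) (by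
        rw [Real.dist_eq, sub_zero, abs_of_nonneg (by
          have : 0 < R - 1 := by linarith
          positivity)]
        exact (min_le_left _ _).trans_lt (by linarith))
      linarith
  set T₁ := R - y with hT₁
  set T₁' := R - y / 2 with hT₁'
  set R₂ := R + y with hR₂
  have hT₁1 : 1 < T₁ := by rw [hT₁]; linarith
  have hT₁T : T₁ < T₁' := by rw [hT₁, hT₁']; linarith
  have hT₂1 : 1 < T₂ := by rw [hT₂]; linarith
  have hT₂T : T₂ < T₂' := by rw [hT₂, hT₂']; linarith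
  have hR₂1 : 1 < R₂ := by rw [hR₂]; linarith
  obtain ⟨rη, hrη, hη⟩ := h1 (y / 4) (by linarith)
  set r := min (min r₁ r₀) rη / 2 with hr
  have hr0 : 0 < r := by positivity
  have hrr₁ : r < r₁ := by
    have : min (min r₁ r₀) rη ≤ r₁ := (min_le_left _ _).trans (min_le_left _ _)
    rw [hr]; linarith
  have hrr₀ : r < r₀ := by
    have : min (min r₁ r₀) rη ≤ r₀ := (min_le_left _ _).trans (min_le_right _ _)
    rw [hr]; linarith
  have hrrη : r < rη := by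
    have : min (min r₁ r₀) rη ≤ rη := min_le_right _ _
    rw [hr]; linarith
  -- the function
  set f : ℂ → ℂ → ℂ := fun w x => P (x, w) / Q (x, w) with hf
  set Ω' : Set (ℂ × ℂ) := Ω ∩ {z | Q z ≠ 0} with hΩ'
  have hΩ'o : IsOpen Ω' := hQ.continuousOn.isOpen_inter_preimage hΩ isOpen_compl_singleton
  have hFd : DifferentiableOn ℂ (fun z => P z / Q z) Ω' := by
    have h3 : DifferentiableOn ℂ (fun z => (Q z)⁻¹) Ω' :=
      (hQ.mono inter_subset_left).fun_inv fun z hz => hz.2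
    have h4 := (hP.mono inter_subset_left).fun_mul h3
    simpa only [div_eq_mul_inv] using h4
  have hin : ∀ w : ℂ, ‖w‖ < r₁ → ∀ x : ℂ, ‖x‖ ≤ 1 → (x, w) ∈ Ω' := fun w hw x hx =>
    ⟨(hQ1 w hw x hx).1, (hQ1 w hw x hx).2⟩
  -- bound of the coefficients
  obtain ⟨A₀, hA₀⟩ : ∃ A₀, ∀ w : ℂ, ‖w‖ ≤ r → ∀ x : ℂ, ‖x‖ = 1 → ‖f w x‖ ≤ A₀ := by
    have hK : IsCompact (sphere (0 : ℂ) 1 ×ˢ closedBall (0 : ℂ) r) :=
      (isCompact_sphere _ _).prod (isCompact_closedBall _ _)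
    obtain ⟨A₀, hA₀⟩ := hK.exists_bound_of_continuousOn (hFd.continuousOn.mono (by
      rintro ⟨x, w⟩ ⟨hx, hw⟩
      rw [mem_sphere_zero_iff_norm] at hx
      rw [mem_closedBall_zero_iff] at hw
      exact hin w (hw.trans_lt hrr₁) x hx.le))
    exact ⟨A₀, fun w hw x hx => hA₀ (x, w) ⟨mem_sphere_zero_iff_norm.2 hx,
      mem_closedBall_zero_iff.2 hw⟩⟩
  set A := max 1 A₀ with hA
  have hA1 : 1 ≤ A := le_max_left _ _
  have hAf : ∀ w : ℂ, ‖w‖ ≤ r → ∀ x : ℂ, ‖x‖ = 1 → ‖f w x‖ ≤ A := fun w hw x hx =>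
    (hA₀ w hw x hx).trans (le_max_right _ _)
  -- denominators
  obtain ⟨N₁, B₁, hB₁, hD₁⟩ := uni hΩ hP hQ (isCompact_sphere (0 : ℂ) r) hT₁1 hT₁T
    (fun w hw x hx => by
      rw [mem_sphere_zero_iff_norm] at hw
      rw [mem_closedBall_zero_iff] at hx
      refine hη x w (lt_of_le_of_lt hx ?_) (by rw [hw]; exact hrrη)
      rw [hT₁']; linarith)
    (fun w hw x hx => by
      rw [mem_sphere_zero_iff_norm] at hw
      exact (hQ1 w (by rw [hw]; exact hrr₁) x hx).2)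
  have hKsec : IsCompact (sphere (0 : ℂ) r ∩ {w | |w.im| ≤ c / 2 * |w.re|}) := by
    refine (isCompact_sphere _ _).inter_right (isClosed_le ?_ ?_) <;> fun_prop
  obtain ⟨N₂, B₂, hB₂, hD₂⟩ := uni hΩ hP hQ hKsec hT₂1 hT₂T
    (fun w hw x hx => by
      obtain ⟨hw1, hw2⟩ := hw
      rw [mem_sphere_zero_iff_norm] at hw1
      rw [mem_closedBall_zero_iff] at hx
      have hw2' : |w.im| ≤ c / 2 * |w.re| := hw2
      have hre : 0 < |w.re| := by
        by_contra hcon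
        push Not at hcon
        have h3 : w.re = 0 := abs_nonpos_iff.1 hcon
        rw [h3, abs_zero, mul_zero] at hw2'
        have h4 : w.im = 0 := abs_nonpos_iff.1 hw2'
        have h5 : w = 0 := Complex.ext h3 h4
        rw [h5, norm_zero] at hw1
        linarith
      refine h2 x w (lt_of_le_of_lt hx ?_) (by rw [hw1]; exact hr0) (by rw [hw1]; exact hrr₀) ?_
      · rw [hT₂']; linarith
      · nlinarith)
    (fun w hw x hx => by
      have hw1 := mem_sphere_zero_iff_norm.1 hw.1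
      exact (hQ1 w (by rw [hw1]; exact hrr₁) x hx).2)
  set N := max N₁ N₂ with hN
  set B := max B₁ B₂ with hB
  have hB1 : 1 ≤ B := hB₁.trans (le_max_left _ _)
  -- choice of p
  set Z := T₂ * T₁ ^ (m - 1) with hZ
  clear_value Z
  have hZ1 : 1 < Z := by
    have h3 : 1 ≤ T₁ ^ (m - 1) := one_le_pow₀ hT₁1.le
    rw [hZ]; nlinarith
  have hR₂m : 0 < R₂ ^ m := by positivity
  obtain ⟨p₀, hp₀⟩ := pow_unbounded_of_one_lt (Z ^ N)
    (show 1 < Z / R₂ ^ m by rw [one_lt_div hR₂m]; exact hy2)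
  set p := max p₀ N with hp
  have hpN : N ≤ p + 1 := (le_max_right _ _).trans (Nat.le_succ _)
  have hZp : (R₂ ^ m) ^ (p + 1) ≤ Z ^ (p + 1 - N) := by
    have h3 : Z ^ N ≤ (Z / R₂ ^ m) ^ (p + 1) := by
      refine hp₀.le.trans (pow_le_pow_right₀ ?_ ((le_max_left _ _).trans (Nat.le_succ _)))
      rw [one_le_div hR₂m]; exact hy2.le
    rw [div_pow, le_div_iff₀ (by positivity)] at h3
    have h4 : Z ^ (p + 1) = Z ^ N * Z ^ (p + 1 - N) := by rw [← pow_add]; congr 1; omega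
    rw [h4] at h3
    exact le_of_mul_le_mul_left h3 (by positivity)
  set E := ((p + 1).factorial : ℝ) * (A * B) ^ (p + 1) with hE
  have hE0 : 0 < E := by positivity
  clear_value E
  have hA0' : 0 < A := by linarith
  have hB0' : 0 < B := by linarith
  -- the bound of the minors at w = 0
  have hkey : ∀ k I, ‖mn (cf (f 0)) p k I‖ ≤ (((p + 1).factorial : ℝ) * (A * B) * (R₂⁻¹) ^ k) ^ (p + 1) := by
    intro k I
    set D : ℂ → ℂ := fun w => mn (cf (f w)) p k I with hD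
    have hDd : DifferentiableOn ℂ D (ball 0 r₁) := by
      refine mn_diff (a := fun w => cf (f w)) (fun n => ?_) p k I
      exact cf_diff hΩ'o hFd isOpen_ball
        (fun w hw x hx => hin w (mem_ball_zero_iff.1 hw) x hx.le) n
    have hY : ∀ w : ℂ, ‖w‖ = r → ‖D w‖ ≤ E / (T₁ ^ (p + 1 - N)) ^ k := by
      intro w hw
      have h3 := mn_of_den hpN hA1 (hAf w hw.le) hB1 hT₁1.le
        ((hD₁ w (mem_sphere_zero_iff_norm.2 hw)).mono (le_max_left _ _) (le_max_left _ _) (by linarith)) k I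
      refine h3.trans (le_of_eq ?_)
      rw [hE, mul_div_assoc]
    have hX : ∀ w : ℂ, ‖w‖ = r → |w.im| < c / 2 * |w.re| → ‖D w‖ ≤ E / (T₂ ^ (p + 1 - N)) ^ k := by
      intro w hw hw2
      have h3 := mn_of_den hpN hA1 (hAf w hw.le) hB1 hT₂1.le
        ((hD₂ w ⟨mem_sphere_zero_iff_norm.2 hw, hw2.le⟩).mono (le_max_right _ _)
          (le_max_right _ _) (by linarith)) k I
      refine h3.trans (le_of_eq ?_)
      rw [hE, mul_div_assoc]
    have h3 := rot_bd hr0 hrr₁ hDd htne ht1 ht2 hX hY (by positivity) (by positivity)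
    have h4 : E / (T₂ ^ (p + 1 - N)) ^ k * (E / (T₁ ^ (p + 1 - N)) ^ k) ^ (m - 1) =
        E ^ m / (Z ^ (p + 1 - N)) ^ k := by
      have e1 : E ^ m = E * E ^ (m - 1) := by rw [← pow_succ']; congr 1; omega
      have e2 : (T₂ ^ (p + 1 - N)) ^ k * ((T₁ ^ (p + 1 - N)) ^ k) ^ (m - 1) =
          (Z ^ (p + 1 - N)) ^ k := by
        rw [hZ, mul_pow, mul_pow]
        congr 1
        rw [← pow_mul, ← pow_mul, ← pow_mul, ← pow_mul]
        congr 1
        ring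
      rw [div_pow, div_mul_div_comm, e1, e2]
    rw [← hm, h4] at h3
    have h5 : E ^ m / (Z ^ (p + 1 - N)) ^ k ≤ (E * ((R₂⁻¹) ^ k) ^ (p + 1)) ^ m := by
      have h6 : ((R₂ ^ m) ^ (p + 1)) ^ k ≤ (Z ^ (p + 1 - N)) ^ k :=
        pow_le_pow_left₀ (by positivity) hZp k
      have e5 : ((R₂⁻¹) ^ k) ^ (p + 1) = (R₂ ^ (k * (p + 1)))⁻¹ := by
        rw [inv_pow, inv_pow, ← pow_mul]
      have e6 : (((R₂ ^ m) ^ (p + 1)) ^ k) = (R₂ ^ (k * (p + 1))) ^ m := by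
        rw [← pow_mul, ← pow_mul, ← pow_mul]
        congr 1
        ring
      calc E ^ m / (Z ^ (p + 1 - N)) ^ k ≤ E ^ m / ((R₂ ^ m) ^ (p + 1)) ^ k :=
            div_le_div_of_nonneg_left (by positivity) (by positivity) h6
        _ = (E * ((R₂⁻¹) ^ k) ^ (p + 1)) ^ m := by
          rw [e5, e6, mul_pow, inv_pow, div_eq_mul_inv]
    have h7 : ‖D 0‖ ≤ E * ((R₂⁻¹) ^ k) ^ (p + 1) :=
      le_of_pow_le_pow_left₀ hm0.ne' (by positivity) (h3.trans h5)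
    refine h7.trans ?_
    have h8 : (1 : ℝ) ≤ (p + 1).factorial := by
      exact_mod_cast Nat.one_le_iff_ne_zero.2 (Nat.factorial_ne_zero _)
    have h9 : ((p + 1).factorial : ℝ) ≤ ((p + 1).factorial : ℝ) ^ (p + 1) :=
      le_self_pow₀ h8 (Nat.succ_ne_zero p)
    have h10 : E ≤ (((p + 1).factorial : ℝ) * (A * B)) ^ (p + 1) := by
      rw [hE, mul_pow (((p + 1).factorial : ℝ))]
      exact mul_le_mul_of_nonneg_right h9 (by positivity)
    rw [mul_pow (((p + 1).factorial : ℝ) * (A * B))]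
    exact mul_le_mul_of_nonneg_right h10 (by positivity)
  -- conclusion
  have hfd : DifferentiableOn ℂ (f 0) (closedBall 0 1) := by
    intro x hx
    rw [mem_closedBall_zero_iff] at hx
    exact (slice_diff hΩ'o hFd (hin 0 (by rw [norm_zero]; exact hr₁) x hx)).differentiableWithinAt
  set τ₁ := R + y / 3 with hτ₁
  set τ := R + y / 2 with hτ
  obtain ⟨q, F, hq, hF, hFq⟩ := Vale.Agent.P097.H161.Mero.hc (a := cf (f 0)) (p := p) (A := A)
    (C₁ := ((p + 1).factorial : ℝ) * (A * B)) (θ := R₂⁻¹) (τ := τ) (τ₁ := τ₁) (f := f 0)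
    (fun n => cf_bd (hAf 0 (by rw [norm_zero]; exact hr0.le)) n) (by positivity) (by positivity)
    (by rw [hτ₁]; linarith) (by rw [hτ₁, hτ]; linarith)
    (by
      rw [inv_mul_lt_iff₀ (by positivity), mul_one, hτ, hR₂]
      linarith)
    hkey (fun x hx => cf_hasSum hfd hx)
  refine ⟨τ₁, by rw [hτ₁]; linarith, q, F, hq, hF, fun x hx => ?_⟩
  have h3 := (hin 0 (by rw [norm_zero]; exact hr₁) x hx.le).2
  have h4 : Q (x, 0) ≠ 0 := h3
  rw [hFq x hx]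
  simp only [hf]
  field_simp

/-- MJ, disc form -/
theorem mj {P Q : ℂ × ℂ → ℂ} {Ω : Set (ℂ × ℂ)} (hΩ : IsOpen Ω) (hP : DifferentiableOn ℂ P Ω)
    (hQ : DifferentiableOn ℂ Q Ω) {t₁ : ℂ} {R ρ c r₀ : ℝ} (hR : 0 < R) (hρ : 0 < ρ) (hc : 0 < c)
    (hr₀ : 0 < r₀) (hQ1 : Q (t₁, 0) ≠ 0)
    (h1 : ∀ η > 0, ∃ r > 0, ∀ t w : ℂ, ‖t - t₁‖ < R - η → ‖w‖ < r → (t, w) ∈ Ω)
    (h2 : ∀ t w : ℂ, ‖t - t₁‖ < R + ρ → 0 < ‖w‖ → ‖w‖ < r₀ → |w.im| < c * |w.re| → (t, w) ∈ Ω) :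
    ∃ R' > R, ∃ (q : Polynomial ℂ) (F : ℂ → ℂ), q ≠ 0 ∧ DifferentiableOn ℂ F (ball t₁ R') ∧
      ∀ t ∈ ball t₁ R, F t * Q (t, 0) = q.eval t * P (t, 0) := by
  -- a small bidisc without zeros of `Q`
  obtain ⟨rr, hrr, hrrΩ⟩ := h1 (R / 2) (by linarith)
  have h0 : (t₁, (0 : ℂ)) ∈ Ω := hrrΩ t₁ 0 (by simpa using by linarith) (by simpa using hrr)
  have hQc : ContinuousAt Q (t₁, 0) := hQ.continuousOn.continuousAt (hΩ.mem_nhds h0)
  have hev : ∀ᶠ z in 𝓝 ((t₁, 0) : ℂ × ℂ), z ∈ Ω ∧ Q z ≠ 0 := by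
    filter_upwards [hΩ.mem_nhds h0, hQc.eventually_ne hQ1] with z hz1 hz2 using ⟨hz1, hz2⟩
  obtain ⟨δ, hδ, hδ2⟩ := Metric.eventually_nhds_iff.1 hev
  set ρ₁ := min (δ / 2) (R / 2) with hρ₁
  have hρ₁0 : 0 < ρ₁ := by positivity
  have hρ₁δ : ρ₁ < δ := (min_le_left _ _).trans_lt (by linarith)
  have hρ₁R : ρ₁ < R := (min_le_right _ _).trans_lt (by linarith)
  set φ : ℂ × ℂ → ℂ × ℂ := fun z => (t₁ + ρ₁ * z.1, z.2) with hφ
  have hφd : Differentiable ℂ φ := by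
    simp only [hφ]; fun_prop
  have hnorm : ∀ x : ℂ, ‖t₁ + ρ₁ * x - t₁‖ = ρ₁ * ‖x‖ := by
    intro x
    rw [add_sub_cancel_left, norm_mul, Complex.norm_real, Real.norm_eq_abs, abs_of_pos hρ₁0]
  have s1 : ∀ w : ℂ, ‖w‖ < δ → ∀ x : ℂ, ‖x‖ ≤ 1 → (x, w) ∈ φ ⁻¹' Ω ∧ (Q ∘ φ) (x, w) ≠ 0 := by
    intro w hw x hx
    have h3 : dist (φ (x, w)) (t₁, 0) < δ := by
      rw [Prod.dist_eq, max_lt_iff]
      constructor
      · rw [dist_eq_norm, hnorm]
        calc ρ₁ * ‖x‖ ≤ ρ₁ * 1 := by gcongr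
          _ < δ := by linarith
      · rw [dist_zero_right]; exact hw
    exact hδ2 h3
  have s2 : ∀ η > 0, ∃ r > 0, ∀ x w : ℂ, ‖x‖ < R / ρ₁ - η → ‖w‖ < r → (x, w) ∈ φ ⁻¹' Ω := by
    intro η hη
    obtain ⟨r, hr, hrΩ⟩ := h1 (η * ρ₁) (by positivity)
    refine ⟨r, hr, fun x w hx hw => hrΩ _ _ ?_ hw⟩
    rw [hnorm]
    have h3 : ρ₁ * ‖x‖ < ρ₁ * (R / ρ₁ - η) := mul_lt_mul_of_pos_left hx hρ₁0
    have h4 : ρ₁ * (R / ρ₁ - η) = R - η * ρ₁ := by field_simp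
    linarith
  have s3 : ∀ x w : ℂ, ‖x‖ < R / ρ₁ + ρ / ρ₁ → 0 < ‖w‖ → ‖w‖ < r₀ → |w.im| < c * |w.re| →
      (x, w) ∈ φ ⁻¹' Ω := by
    intro x w hx hw0 hw hw2
    refine h2 _ _ ?_ hw0 hw hw2
    rw [hnorm]
    have h3 : ρ₁ * ‖x‖ < ρ₁ * (R / ρ₁ + ρ / ρ₁) := mul_lt_mul_of_pos_left hx hρ₁0
    have h4 : ρ₁ * (R / ρ₁ + ρ / ρ₁) = R + ρ := by field_simp
    linarith
  obtain ⟨R', hR', q, F, hq, hF, hFq⟩ := mj_norm (P := P ∘ φ) (Q := Q ∘ φ) (Ω := φ ⁻¹' Ω)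
    (hΩ.preimage hφd.continuous) (hP.comp hφd.differentiableOn (fun z hz => hz))
    (hQ.comp hφd.differentiableOn (fun z hz => hz)) (R := R / ρ₁) (ρ := ρ / ρ₁) (c := c) (r₀ := r₀)
    (r₁ := δ) (by rwa [one_lt_div hρ₁0]) (by positivity) hc hr₀ hδ s1 s2 s3
  · -- back to the original variable
    have hρc : (ρ₁ : ℂ) ≠ 0 := by exact_mod_cast hρ₁0.ne'
    set L : Polynomial ℂ := Polynomial.C ((ρ₁ : ℂ)⁻¹) * (Polynomial.X - Polynomial.C t₁) with hL
    have hLev : ∀ t : ℂ, L.eval t = (t - t₁) / ρ₁ := by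
      intro t
      simp only [hL, Polynomial.eval_mul, Polynomial.eval_C, Polynomial.eval_sub, Polynomial.eval_X]
      field_simp
    have hdist : ∀ t : ℂ, ∀ S : ℝ, t ∈ ball t₁ (S * ρ₁) → (t - t₁) / ρ₁ ∈ ball (0 : ℂ) S := by
      intro t S ht
      rw [mem_ball, dist_eq_norm] at ht
      rw [mem_ball_zero_iff, norm_div, Complex.norm_real, Real.norm_eq_abs, abs_of_pos hρ₁0,
        div_lt_iff₀ hρ₁0]
      exact ht
    have hR'R : R < R' * ρ₁ := by rwa [gt_iff_lt, div_lt_iff₀ hρ₁0] at hR'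
    refine ⟨R' * ρ₁, hR'R, q.comp L, fun t => F ((t - t₁) / ρ₁), ?_, ?_, ?_⟩
    · intro h3
      apply hq
      apply Polynomial.funext
      intro x
      have h4 := congrArg (Polynomial.eval (t₁ + ρ₁ * x)) h3
      rw [Polynomial.eval_comp, hLev, add_sub_cancel_left, mul_div_cancel_left₀ _ hρc] at h4
      simpa using h4
    · refine hF.comp (by fun_prop) fun t ht => hdist t R' ht
    · -- identity theorem
      have hPan : DifferentiableOn ℂ (fun t => P (t, 0)) (ball t₁ R) := by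
        intro t ht
        rw [mem_ball, dist_eq_norm] at ht
        obtain ⟨r, hr, hrΩ⟩ := h1 ((R - ‖t - t₁‖) / 2) (by linarith)
        exact (slice_diff hΩ hP (hrΩ t 0 (by linarith) (by simpa using hr))).differentiableWithinAt
      have hQan : DifferentiableOn ℂ (fun t => Q (t, 0)) (ball t₁ R) := by
        intro t ht
        rw [mem_ball, dist_eq_norm] at ht
        obtain ⟨r, hr, hrΩ⟩ := h1 ((R - ‖t - t₁‖) / 2) (by linarith)
        exact (slice_diff hΩ hQ (hrΩ t 0 (by linarith) (by simpa using hr))).differentiableWithinAt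
      have hFan : DifferentiableOn ℂ (fun t => F ((t - t₁) / ρ₁)) (ball t₁ R) := by
        refine hF.comp (by fun_prop) fun t ht => hdist t R' ?_
        exact ball_subset_ball hR'R.le ht
      have e1 : AnalyticOnNhd ℂ (fun t => F ((t - t₁) / ρ₁) * Q (t, 0)) (ball t₁ R) :=
        (hFan.mul hQan).analyticOnNhd isOpen_ball
      have e2 : AnalyticOnNhd ℂ (fun t => (q.comp L).eval t * P (t, 0)) (ball t₁ R) :=
        (((q.comp L).differentiable.differentiableOn).mul hPan).analyticOnNhd isOpen_ball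
      have e3 := e1.eqOn_of_preconnected_of_eventuallyEq e2 (convex_ball _ _).isPreconnected
        (mem_ball_self hR) ?_
      · intro t ht
        exact e3 ht
      · have h5 : ball t₁ ρ₁ ∈ 𝓝 t₁ := ball_mem_nhds _ hρ₁0
        filter_upwards [h5] with t ht
        rw [mem_ball, dist_eq_norm] at ht
        have h6 : ‖(t - t₁) / ρ₁‖ < 1 := by
          rw [norm_div, Complex.norm_real, Real.norm_eq_abs, abs_of_pos hρ₁0, div_lt_one hρ₁0]
          exact ht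
        have h7 := hFq _ h6
        have h8 : φ ((t - t₁) / ρ₁, 0) = (t, 0) := by
          simp only [hφ]
          rw [mul_div_cancel₀ _ hρc]
          congr 1
          ring
        simp only [Function.comp_apply, h8] at h7
        rw [Polynomial.eval_comp, hLev]
        exact h7

end Vale.Agent.P097.H161.Mero
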