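import Vale.Agent.P097.H161.Mero.Core

/-! # P097 / H161: MJ, the sector extension, form with local quotients over the sector. -/

set_option linter.all false

open Complex Metric Set Filter Topology

namespace Vale.Agent.P097.H161.Mero

/-- normalised form -/
theorem mj2_norm {f : ℂ × ℂ → ℂ} {Ω : Set (ℂ × ℂ)} (hΩ : IsOpen Ω) (hf : DifferentiableOn ℂ f Ω)
    {R ρ c r₀ : ℝ} (hR : 1 < R) (hρ : 0 < ρ) (hc : 0 < c) (hr₀ : 0 < r₀)
    (h1 : ∀ η > 0, ∃ r > 0, ∀ x w : ℂ, ‖x‖ < R - η → ‖w‖ < r → (x, w) ∈ Ω)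
    (h2 : ∀ w₁ : ℂ, 0 < ‖w₁‖ → ‖w₁‖ < r₀ → |w₁.im| < c * |w₁.re| → ∃ ε > 0, ∃ P Q : ℂ × ℂ → ℂ,
      DifferentiableOn ℂ P (ball 0 (R + ρ) ×ˢ ball w₁ ε) ∧
      DifferentiableOn ℂ Q (ball 0 (R + ρ) ×ˢ ball w₁ ε) ∧
      (∃ x ∈ ball (0 : ℂ) (R + ρ), Q (x, w₁) ≠ 0) ∧
      ∃ δ > 0, ∀ x ∈ ball (0 : ℂ) δ, ∀ w ∈ ball w₁ ε, (x, w) ∈ Ω → Q (x, w) * f (x, w) = P (x, w)) :
    ∃ R' > R, ∃ (q : Polynomial ℂ) (F : ℂ → ℂ), q ≠ 0 ∧ DifferentiableOn ℂ F (ball 0 R') ∧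
      ∀ x : ℂ, ‖x‖ < 1 → F x = q.eval x * f (x, 0) := by
  obtain ⟨rη, hrη, hη⟩ := h1 ((R - 1) / 2) (by linarith)
  refine core hΩ hf (R := R) (T₂ := R + ρ / 2) (c := c / 2) (r₁ := rη) hR (by linarith) (by linarith)
    hrη (fun w hw x hx => hη x w (by linarith) hw) ?_ ?_
  · intro T₁ hT₁ hT₁R
    obtain ⟨r', hr', hη'⟩ := h1 ((R - T₁) / 2) (by linarith)
    refine ⟨r', hr', fun r hr hrr' => ?_⟩
    have hK : IsCompact (closedBall (0 : ℂ) T₁ ×ˢ sphere (0 : ℂ) r) :=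
      (isCompact_closedBall _ _).prod (isCompact_sphere _ _)
    have hin : ∀ x w : ℂ, ‖x‖ ≤ T₁ → ‖w‖ = r → (x, w) ∈ Ω := fun x w hx hw =>
      hη' x w (by linarith) (by rw [hw]; exact hrr')
    obtain ⟨B, hB⟩ := hK.exists_bound_of_continuousOn (hf.continuousOn.mono (by
      rintro ⟨x, w⟩ ⟨hx, hw⟩
      exact hin x w (mem_closedBall_zero_iff.1 hx) (mem_sphere_zero_iff_norm.1 hw)))
    refine ⟨0, max 1 B, le_max_left _ _, fun w hw => ?_⟩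
    have hsd : ∀ x ∈ closedBall (0 : ℂ) T₁, DifferentiableAt ℂ (fun x => f (x, w)) x := fun x hx =>
      slice_diff hΩ hf (hin x w (mem_closedBall_zero_iff.1 hx) hw)
    refine ⟨fun i => if i = 0 then 1 else 0, fun n => cf (fun x => f (x, w)) n, by simp, ?_, ?_⟩
    · intro n _
      simp
    · intro n
      refine cf_bd_large hT₁.le (fun x hx => (hsd x hx).continuousAt.continuousWithinAt)
        (fun x hx => hsd x (ball_subset_closedBall hx)) (fun x hx => ?_) n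
      exact (hB (x, w) ⟨mem_closedBall_zero_iff.2 hx.le, mem_sphere_zero_iff_norm.2 hw⟩).trans
        (le_max_right _ _)
  · refine ⟨min r₀ rη, lt_min hr₀ hrη, fun r hr hrr' => ?_⟩
    have hrr₀ : r < r₀ := hrr'.trans_le (min_le_left _ _)
    have hrrη : r < rη := hrr'.trans_le (min_le_right _ _)
    have hK : IsCompact (sphere (0 : ℂ) r ∩ {w | |w.im| ≤ c / 2 * |w.re|}) := by
      refine (isCompact_sphere _ _).inter_right (isClosed_le ?_ ?_) <;> fun_prop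
    have key : ∃ (N : ℕ) (B : ℝ), 1 ≤ B ∧ ∀ w ∈ sphere (0 : ℂ) r ∩ {w | |w.im| ≤ c / 2 * |w.re|},
        Den (fun x => f (x, w)) N B (R + ρ / 2) := by
      refine hK.induction_on (p := fun S => ∃ (N : ℕ) (B : ℝ), 1 ≤ B ∧ ∀ w ∈ S,
        Den (fun x => f (x, w)) N B (R + ρ / 2)) ?_ ?_ ?_ ?_
      · exact ⟨0, 1, le_rfl, fun w hw => absurd hw (notMem_empty w)⟩
      · rintro S S' hSS' ⟨N, B, hB, h⟩
        exact ⟨N, B, hB, fun w hw => h w (hSS' hw)⟩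
      · rintro S S' ⟨N, B, hB, h⟩ ⟨N', B', hB', h'⟩
        refine ⟨max N N', max B B', hB.trans (le_max_left _ _), ?_⟩
        rintro w (hw | hw)
        · exact (h w hw).mono (le_max_left _ _) (le_max_left _ _) (by linarith)
        · exact (h' w hw).mono (le_max_right _ _) (le_max_right _ _) (by linarith)
      · rintro w₁ ⟨hw1, hw2⟩
        rw [mem_sphere_zero_iff_norm] at hw1
        have hw2' : |w₁.im| ≤ c / 2 * |w₁.re| := hw2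
        have hre : 0 < |w₁.re| := by
          by_contra hcon
          push Not at hcon
          have h3 : w₁.re = 0 := abs_nonpos_iff.1 hcon
          rw [h3, abs_zero, mul_zero] at hw2'
          have h4 : w₁.im = 0 := abs_nonpos_iff.1 hw2'
          have h5 : w₁ = 0 := Complex.ext h3 h4
          rw [h5, norm_zero] at hw1
          linarith
        obtain ⟨ε, hε, P, Q, hP, hQ, hQ1, δ, hδ, hid⟩ := h2 w₁ (by rw [hw1]; exact hr)
          (by rw [hw1]; exact hrr₀) (by nlinarith)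
        obtain ⟨N, B, hB, hN⟩ := loc hΩ hf (T := R + ρ / 2) (T' := R + ρ) (ϱ := R - (R - 1) / 2)
          (rη := rη) (w₁ := w₁) (by linarith) (by linarith) (by linarith) hε hδ
          (by rw [hw1]; exact hrrη) hη hP hQ hQ1 hid
        exact ⟨{w | Den (fun x => f (x, w)) N B (R + ρ / 2)}, mem_nhdsWithin_of_mem_nhds hN, N, B, hB,
          fun w hw => hw⟩
    obtain ⟨N, B, hB, h⟩ := key
    exact ⟨N, B, hB, fun w hw hw2 => h w ⟨mem_sphere_zero_iff_norm.2 hw, hw2.le⟩⟩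

/-- MJ, form with local quotients over the sector -/
theorem mj2 {f : ℂ × ℂ → ℂ} {Ω : Set (ℂ × ℂ)} (hΩ : IsOpen Ω) (hf : DifferentiableOn ℂ f Ω)
    {t₁ : ℂ} {R ρ c r₀ : ℝ} (hR : 0 < R) (hρ : 0 < ρ) (hc : 0 < c) (hr₀ : 0 < r₀)
    (h1 : ∀ η > 0, ∃ r > 0, ∀ t w : ℂ, ‖t - t₁‖ < R - η → ‖w‖ < r → (t, w) ∈ Ω)
    (h2 : ∀ w₁ : ℂ, 0 < ‖w₁‖ → ‖w₁‖ < r₀ → |w₁.im| < c * |w₁.re| → ∃ ε > 0, ∃ P Q : ℂ × ℂ → ℂ,
      DifferentiableOn ℂ P (ball t₁ (R + ρ) ×ˢ ball w₁ ε) ∧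
      DifferentiableOn ℂ Q (ball t₁ (R + ρ) ×ˢ ball w₁ ε) ∧
      (∃ t ∈ ball t₁ (R + ρ), Q (t, w₁) ≠ 0) ∧
      ∃ δ > 0, ∀ t ∈ ball t₁ δ, ∀ w ∈ ball w₁ ε, (t, w) ∈ Ω → Q (t, w) * f (t, w) = P (t, w)) :
    ∃ R' > R, ∃ (q : Polynomial ℂ) (F : ℂ → ℂ), q ≠ 0 ∧ DifferentiableOn ℂ F (ball t₁ R') ∧
      ∀ t ∈ ball t₁ R, F t = q.eval t * f (t, 0) := by
  set ρ₁ := R / 2 with hρ₁
  have hρ₁0 : 0 < ρ₁ := by positivity
  have hρ₁R : ρ₁ < R := by rw [hρ₁]; linarith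
  set φ : ℂ × ℂ → ℂ × ℂ := fun z => (t₁ + ρ₁ * z.1, z.2) with hφ
  have hφd : Differentiable ℂ φ := by
    simp only [hφ]; fun_prop
  have hnorm : ∀ x : ℂ, ‖t₁ + ρ₁ * x - t₁‖ = ρ₁ * ‖x‖ := by
    intro x
    rw [add_sub_cancel_left, norm_mul, Complex.norm_real, Real.norm_eq_abs, abs_of_pos hρ₁0]
  have hmem : ∀ x : ℂ, ∀ S : ℝ, x ∈ ball (0 : ℂ) (S / ρ₁) → t₁ + ρ₁ * x ∈ ball t₁ S := by
    intro x S hx
    rw [mem_ball_zero_iff, lt_div_iff₀ hρ₁0] at hx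
    rw [mem_ball, dist_eq_norm, hnorm]
    linarith
  have s2 : ∀ η > 0, ∃ r > 0, ∀ x w : ℂ, ‖x‖ < R / ρ₁ - η → ‖w‖ < r → (x, w) ∈ φ ⁻¹' Ω := by
    intro η hη
    obtain ⟨r, hr, hrΩ⟩ := h1 (η * ρ₁) (by positivity)
    refine ⟨r, hr, fun x w hx hw => hrΩ _ _ ?_ hw⟩
    rw [hnorm]
    have h3 : ρ₁ * ‖x‖ < ρ₁ * (R / ρ₁ - η) := mul_lt_mul_of_pos_left hx hρ₁0
    have h4 : ρ₁ * (R / ρ₁ - η) = R - η * ρ₁ := by field_simp
    linarith
  have hadd : R / ρ₁ + ρ / ρ₁ = (R + ρ) / ρ₁ := by field_simp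
  have s3 : ∀ w₁ : ℂ, 0 < ‖w₁‖ → ‖w₁‖ < r₀ → |w₁.im| < c * |w₁.re| → ∃ ε > 0, ∃ P Q : ℂ × ℂ → ℂ,
      DifferentiableOn ℂ P (ball 0 (R / ρ₁ + ρ / ρ₁) ×ˢ ball w₁ ε) ∧
      DifferentiableOn ℂ Q (ball 0 (R / ρ₁ + ρ / ρ₁) ×ˢ ball w₁ ε) ∧
      (∃ x ∈ ball (0 : ℂ) (R / ρ₁ + ρ / ρ₁), Q (x, w₁) ≠ 0) ∧
      ∃ δ > 0, ∀ x ∈ ball (0 : ℂ) δ, ∀ w ∈ ball w₁ ε, (x, w) ∈ φ ⁻¹' Ω →
        Q (x, w) * (f ∘ φ) (x, w) = P (x, w) := by
    intro w₁ hw0 hw1 hw2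
    obtain ⟨ε, hε, P, Q, hP, hQ, ⟨t, ht, hQt⟩, δ, hδ, hid⟩ := h2 w₁ hw0 hw1 hw2
    rw [hadd]
    have hmap : MapsTo φ (ball 0 ((R + ρ) / ρ₁) ×ˢ ball w₁ ε) (ball t₁ (R + ρ) ×ˢ ball w₁ ε) := by
      rintro ⟨x, w⟩ ⟨hx, hw⟩
      exact ⟨hmem x _ hx, hw⟩
    refine ⟨ε, hε, P ∘ φ, Q ∘ φ, hP.comp hφd.differentiableOn hmap,
      hQ.comp hφd.differentiableOn hmap, ⟨(t - t₁) / ρ₁, ?_, ?_⟩, δ / ρ₁, by positivity, ?_⟩
    · rw [mem_ball, dist_eq_norm] at ht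
      rw [mem_ball_zero_iff, norm_div, Complex.norm_real, Real.norm_eq_abs, abs_of_pos hρ₁0]
      exact (div_lt_div_iff_of_pos_right hρ₁0).2 ht
    · have hρc : (ρ₁ : ℂ) ≠ 0 := by exact_mod_cast hρ₁0.ne'
      have h8 : φ ((t - t₁) / ρ₁, w₁) = (t, w₁) := by
        simp only [hφ]
        rw [mul_div_cancel₀ _ hρc]
        congr 1
        ring
      rw [Function.comp_apply, h8]
      exact hQt
    · intro x hx w hw hxw
      exact hid _ (hmem x δ hx) w hw hxw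
  obtain ⟨R', hR', q, F, hq, hF, hFq⟩ := mj2_norm (f := f ∘ φ) (Ω := φ ⁻¹' Ω)
    (hΩ.preimage hφd.continuous) (hf.comp hφd.differentiableOn (fun z hz => hz))
    (R := R / ρ₁) (ρ := ρ / ρ₁) (c := c) (r₀ := r₀)
    (by rwa [one_lt_div hρ₁0]) (by positivity) hc hr₀ s2 s3
  -- back to the original variable
  have hρc : (ρ₁ : ℂ) ≠ 0 := by exact_mod_cast hρ₁0.ne'
  set L : Polynomial ℂ := Polynomial.C ((ρ₁ : ℂ)⁻¹) * (Polynomial.X - Polynomial.C t₁) with hL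
  have hLev : ∀ t : ℂ, L.eval t = (t - t₁) / ρ₁ := by
    intro t
    simp only [hL, Polynomial.eval_mul, Polynomial.eval_C, Polynomial.eval_sub, Polynomial.eval_X]
    field_simp
  have hdist : ∀ t : ℂ, ∀ S : ℝ, t ∈ ball t₁ (S * ρ₁) → (t - t₁) / ρ₁ ∈ ball (0 : ℂ) S := by
    intro t S ht
    rw [mem_ball, dist_eq_norm] at ht
    rw [mem_ball_zero_iff, norm_div, Complex.norm_real, Real.norm_eq_abs, abs_of_pos hρ₁0,
      div_lt_iff₀ hρ₁0]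
    exact ht
  have hR'R : R < R' * ρ₁ := by rwa [gt_iff_lt, div_lt_iff₀ hρ₁0] at hR'
  refine ⟨R' * ρ₁, hR'R, q.comp L, fun t => F ((t - t₁) / ρ₁), ?_, ?_, ?_⟩
  · intro h3
    apply hq
    apply Polynomial.funext
    intro x
    have h4 := congrArg (Polynomial.eval (t₁ + ρ₁ * x)) h3
    rw [Polynomial.eval_comp, hLev, add_sub_cancel_left, mul_div_cancel_left₀ _ hρc] at h4
    simpa using h4
  · refine hF.comp (by fun_prop) fun t ht => hdist t R' ht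
  · -- identity theorem
    have hfan : DifferentiableOn ℂ (fun t => f (t, 0)) (ball t₁ R) := by
      intro t ht
      rw [mem_ball, dist_eq_norm] at ht
      obtain ⟨r, hr, hrΩ⟩ := h1 ((R - ‖t - t₁‖) / 2) (by linarith)
      exact (slice_diff hΩ hf (hrΩ t 0 (by linarith) (by simpa using hr))).differentiableWithinAt
    have hFan : DifferentiableOn ℂ (fun t => F ((t - t₁) / ρ₁)) (ball t₁ R) := by
      refine hF.comp (by fun_prop) fun t ht => hdist t R' ?_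
      exact ball_subset_ball hR'R.le ht
    have e1 : AnalyticOnNhd ℂ (fun t => F ((t - t₁) / ρ₁)) (ball t₁ R) :=
      hFan.analyticOnNhd isOpen_ball
    have e2 : AnalyticOnNhd ℂ (fun t => (q.comp L).eval t * f (t, 0)) (ball t₁ R) :=
      (((q.comp L).differentiable.differentiableOn).mul hfan).analyticOnNhd isOpen_ball
    have e3 := e1.eqOn_of_preconnected_of_eventuallyEq e2 (convex_ball _ _).isPreconnected
      (mem_ball_self hR) ?_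
    · intro t ht
      exact e3 ht
    · have h5 : ball t₁ ρ₁ ∈ 𝓝 t₁ := ball_mem_nhds _ hρ₁0
      filter_upwards [h5] with t ht
      rw [mem_ball, dist_eq_norm] at ht
      have h6 : ‖(t - t₁) / ρ₁‖ < 1 := by
        rw [norm_div, Complex.norm_real, Real.norm_eq_abs, abs_of_pos hρ₁0, div_lt_one hρ₁0]
        exact ht
      have h7 := hFq _ h6
      have h8 : φ ((t - t₁) / ρ₁, 0) = (t, 0) := by
        simp only [hφ]
        rw [mul_div_cancel₀ _ hρc]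
        congr 1
        ring
      simp only [Function.comp_apply, h8] at h7
      rw [Polynomial.eval_comp, hLev]
      exact h7

end Vale.Agent.P097.H161.Mero
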