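import Mathlib

/-! # P097 / H161: minors of the coefficients of a power series (meromorphic continuation).
(LA) small minors give an approximate linear relation; (DIR) a denominator of degree `N` gives small
minors. -/

set_option linter.all false

open Finset Matrix

namespace Vale.Agent.P097.H161.Mero

/-- the minor with free rows `k + I r` and consecutive columns -/
noncomputable def mn (a : ℕ → ℂ) (p k : ℕ) (I : Fin (p + 1) → ℕ) : ℂ :=
  Matrix.det (Matrix.of fun r s : Fin (p + 1) => a (k + I r + s))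

theorem norm_det_le_col {n : ℕ} {M : Matrix (Fin n) (Fin n) ℂ} {c : Fin n → ℝ}
    (h : ∀ r s, ‖M r s‖ ≤ c s) : ‖M.det‖ ≤ n.factorial * ∏ s, c s := by
  rw [Matrix.det_apply]
  refine (norm_sum_le _ _).trans ?_
  have h1 : ∀ σ ∈ (Finset.univ : Finset (Equiv.Perm (Fin n))),
      ‖Equiv.Perm.sign σ • ∏ i, M (σ i) i‖ ≤ ∏ s, c s := by
    intro σ _
    have h2 : ‖Equiv.Perm.sign σ • ∏ i, M (σ i) i‖ = ‖∏ i, M (σ i) i‖ := by
      rcases Int.units_eq_one_or (Equiv.Perm.sign σ) with h | h
      · rw [h, one_smul]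
      · rw [h, Units.neg_smul, one_smul, norm_neg]
    rw [h2, norm_prod]
    exact Finset.prod_le_prod (fun i _ => norm_nonneg _) fun i _ => h _ _
  refine (Finset.sum_le_sum h1).trans ?_
  rw [Finset.sum_const, Finset.card_univ, Fintype.card_perm, Fintype.card_fin, nsmul_eq_mul]

theorem prod_ite_range (n N : ℕ) (x : ℝ) (hN : N ≤ n) :
    ∏ s : Fin n, (if N ≤ (s : ℕ) then x else 1) = x ^ (n - N) := by
  rw [Fin.prod_univ_eq_prod_range (fun i => if N ≤ i then x else 1) n, Finset.prod_ite,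
    Finset.prod_const_one, mul_one, Finset.prod_const]
  congr 1
  have : (Finset.range n).filter (fun i => N ≤ i) = Finset.Ico N n := by
    ext i
    simp only [Finset.mem_filter, Finset.mem_range, Finset.mem_Ico]
    tauto
  rw [this, Nat.card_Ico]

/-- (DIR) -/
theorem minor_bd {p N : ℕ} (hN : N ≤ p + 1) {a b q : ℕ → ℂ} {A B T : ℝ} (hq : q 0 = 1)
    (hb : ∀ n, N ≤ n → b n = ∑ i ∈ Finset.range (N + 1), q i * a (n - i))
    (hA1 : 1 ≤ A) (hA : ∀ n, ‖a n‖ ≤ A) (hB1 : 1 ≤ B) (hB : ∀ n, ‖b n‖ ≤ B / T ^ n) (hT : 1 ≤ T)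
    (k : ℕ) (I : Fin (p + 1) → ℕ) :
    ‖mn a p k I‖ ≤ (p + 1).factorial * ((A * B) ^ (p + 1) / (T ^ (p + 1 - N)) ^ k) := by
  set M : Matrix (Fin (p + 1)) (Fin (p + 1)) ℂ := Matrix.of fun r s => a (k + I r + s) with hM
  set U : Matrix (Fin (p + 1)) (Fin (p + 1)) ℂ := Matrix.of fun t s =>
    if N ≤ (s : ℕ) then (if (t : ℕ) ≤ s ∧ (s : ℕ) - t ≤ N then q (s - t) else 0)
    else (if t = s then 1 else 0) with hU
  have hdet : U.det = 1 := by
    rw [Matrix.det_of_upperTriangular]
    · refine Finset.prod_eq_one fun i _ => ?_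
      simp [hU, hq]
    · intro i j hij
      have h1 : (j : ℕ) < i := hij
      simp only [hU, Matrix.of_apply]
      have h2 : ¬ ((i : ℕ) ≤ j ∧ (j : ℕ) - i ≤ N) := by omega
      have h3 : i ≠ j := by
        rintro rfl; exact lt_irrefl _ h1
      rw [if_neg h2, if_neg h3, ite_self]
  have hMU : ∀ r s, (M * U) r s = if N ≤ (s : ℕ) then b (k + I r + s) else a (k + I r + s) := by
    intro r s
    rw [Matrix.mul_apply]
    simp only [hM, hU, Matrix.of_apply]
    split_ifs with h
    · rw [hb _ (by omega)]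
      simp only [mul_ite, mul_zero]
      rw [← Finset.sum_filter]
      refine Finset.sum_bij' (fun t _ => (s : ℕ) - t)
        (fun i _ => if hi : (s : ℕ) - i < p + 1 then ⟨(s : ℕ) - i, hi⟩ else 0) ?_ ?_ ?_ ?_ ?_
      · intro t ht
        simp only [Finset.mem_filter, Finset.mem_univ, true_and] at ht
        simp only [Finset.mem_range]
        omega
      · intro i hi
        simp only [Finset.mem_range] at hi
        have h1 : (s : ℕ) - i < p + 1 := by have := s.2; omega
        simp only [h1, dif_pos, Finset.mem_filter, Finset.mem_univ, true_and]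
        omega
      · intro t ht
        simp only [Finset.mem_filter, Finset.mem_univ, true_and] at ht
        have h1 : (s : ℕ) - (s - t) < p + 1 := by have := s.2; omega
        simp only [h1, dif_pos]
        apply Fin.ext
        simp only
        omega
      · intro i hi
        simp only [Finset.mem_range] at hi
        have h1 : (s : ℕ) - i < p + 1 := by have := s.2; omega
        simp only [h1, dif_pos]
        omega
      · intro t ht
        simp only [Finset.mem_filter, Finset.mem_univ, true_and] at ht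
        have h1 : k + I r + s - (s - t) = k + I r + t := by omega
        rw [h1, mul_comm]
    · simp
  have h1 : mn a p k I = (M * U).det := by
    rw [Matrix.det_mul, hdet, mul_one]
    rfl
  have hT0 : 0 < T := by linarith
  have hTk : 1 ≤ T ^ k := one_le_pow₀ hT
  rw [h1]
  refine (norm_det_le_col (c := fun s => (A * B) * (if N ≤ (s : ℕ) then 1 / T ^ k else 1)) ?_).trans ?_
  · intro r s
    rw [hMU]
    split_ifs with h
    · refine (hB _).trans ?_
      have h2 : T ^ k ≤ T ^ (k + I r + s) := pow_le_pow_right₀ hT (by omega)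
      calc B / T ^ (k + I r + s) ≤ B / T ^ k :=
            div_le_div_of_nonneg_left (by linarith) (by positivity) h2
        _ = 1 * B * (1 / T ^ k) := by ring
        _ ≤ A * B * (1 / T ^ k) := by
            have : 0 ≤ 1 / T ^ k := by positivity
            gcongr
    · rw [mul_one]
      exact (hA _).trans (le_mul_of_one_le_right (by linarith) hB1)
  · rw [Finset.prod_mul_distrib, Finset.prod_const, Finset.card_univ, Fintype.card_fin,
      prod_ite_range _ _ _ hN]
    apply le_of_eq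
    congr 1
    rw [div_pow, one_pow, mul_one_div]
    congr 1
    rw [← pow_mul, ← pow_mul, mul_comm]

/-- arbitrary columns -/
theorem det_cols {n : ℕ} {B : ℕ → Fin n → ℂ} {D : ℝ}
    (h : ∀ I : Fin n → ℕ, ‖Matrix.det (Matrix.of fun r s : Fin n => B (I r) s)‖ ≤ D)
    (I : Fin n → ℕ) (J : Fin n → Fin n) (hD : 0 ≤ D) :
    ‖Matrix.det (Matrix.of fun r s : Fin n => B (I r) (J s))‖ ≤ D := by
  by_cases hJ : Function.Injective J
  · set e : Equiv.Perm (Fin n) := Equiv.ofBijective J (Finite.injective_iff_bijective.1 hJ) with he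
    have h1 : (Matrix.of fun r s : Fin n => B (I r) (J s)) =
        (Matrix.of fun r s : Fin n => B (I r) s).submatrix id e := by
      ext r s
      rfl
    rw [h1, Matrix.det_permute']
    have h2 := h I
    rcases Int.units_eq_one_or (Equiv.Perm.sign e) with h3 | h3
    · rw [h3]; simpa using h2
    · rw [h3]; simpa using h2
  · have : ∃ s s', J s = J s' ∧ s ≠ s' := by
      by_contra hc
      push Not at hc
      exact hJ fun s s' h => hc s s' h
    obtain ⟨s, s', h1, h2⟩ := this
    rw [Matrix.det_zero_of_column_eq h2 (by intro r; simp [h1]), norm_zero]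
    exact hD

/-- (LA) -/
theorem exists_comb {p : ℕ} {B : ℕ → Fin (p + 1) → ℂ} {A δ : ℝ} (hA : ∀ i j, ‖B i j‖ ≤ A)
    (hδ : 0 < δ)
    (h : ∀ I : Fin (p + 1) → ℕ, ‖Matrix.det (Matrix.of fun r s : Fin (p + 1) => B (I r) s)‖ ≤
      δ ^ (p + 1)) :
    ∃ c : Fin (p + 1) → ℂ, ‖c‖ = 1 ∧ ∀ i, ‖∑ j, c j * B i j‖ ≤ 2 * δ := by
  set X : Set ℝ := {x | ∃ q : ℕ, q ≤ p ∧ ∃ (I : Fin q → ℕ) (J : Fin q → Fin (p + 1)),
    x = ‖Matrix.det (Matrix.of fun r s : Fin q => B (I r) (J s))‖ / δ ^ q} with hX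
  have h1X : (1 : ℝ) ∈ X := ⟨0, Nat.zero_le _, fun i => i.elim0, fun i => i.elim0, by simp⟩
  have hbdd : BddAbove X := by
    refine ⟨(p.factorial * (max A 1) ^ p) / (min δ 1) ^ p, ?_⟩
    rintro x ⟨q, hq, I, J, rfl⟩
    have h2 : ‖Matrix.det (Matrix.of fun r s : Fin q => B (I r) (J s))‖ ≤
        q.factorial * ∏ s : Fin q, (max A 1) :=
      norm_det_le_col (c := fun _ => max A 1) fun r s => (hA _ _).trans (le_max_left _ _)
    rw [Finset.prod_const, Finset.card_univ, Fintype.card_fin] at h2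
    have h3 : (q.factorial : ℝ) ≤ p.factorial := by exact_mod_cast Nat.factorial_le hq
    have h4 : (max A 1) ^ q ≤ (max A 1) ^ p := pow_le_pow_right₀ (le_max_right _ _) hq
    have h5 : (min δ 1) ^ p ≤ (min δ 1) ^ q :=
      pow_le_pow_of_le_one (by positivity) (min_le_right _ _) hq
    have h6 : (min δ 1) ^ q ≤ δ ^ q := pow_le_pow_left₀ (by positivity) (min_le_left _ _) _
    refine div_le_div₀ (by positivity) (h2.trans ?_) (by positivity) (h5.trans h6)
    gcongr
  set S := sSup X with hS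
  have hS1 : 1 ≤ S := le_csSup hbdd h1X
  obtain ⟨x, ⟨q, hq, I, J, hx⟩, hxS⟩ := exists_lt_of_lt_csSup ⟨1, h1X⟩
    (show S / 2 < sSup X by linarith)
  have hx0 : 0 < x := by linarith
  -- a free column
  obtain ⟨j₀, hj₀⟩ : ∃ j₀, ∀ s, J s ≠ j₀ := by
    by_contra hc
    push Not at hc
    have := Fintype.card_le_of_surjective J hc
    simp at this
    omega
  set K : Fin (q + 1) → Fin (p + 1) := Fin.cons j₀ J with hK
  set m : Fin (q + 1) → ℂ := fun t =>
    Matrix.det (Matrix.of fun r s : Fin q => B (I r) (K (t.succAbove s))) with hm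
  have hm0 : m 0 = Matrix.det (Matrix.of fun r s : Fin q => B (I r) (J s)) := by
    simp only [hm, hK]
    congr 1
  set c₀ : Fin (p + 1) → ℂ := fun j => ∑ t : Fin (q + 1), if K t = j then (-1) ^ (t : ℕ) * m t else 0
    with hc₀
  have hcj : c₀ j₀ = m 0 := by
    simp only [hc₀]
    rw [Fin.sum_univ_succ]
    have : ∀ i : Fin q, (if K i.succ = j₀ then (-1) ^ ((i.succ : Fin (q + 1)) : ℕ) * m i.succ else 0)
        = 0 := by
      intro i
      rw [if_neg]
      simpa [hK] using hj₀ i
    rw [Finset.sum_eq_zero fun i _ => this i]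
    simp [hK]
  have hsum : ∀ i, ∑ j, c₀ j * B i j =
      Matrix.det (Matrix.of fun r s : Fin (q + 1) => B ((Fin.cons i I : Fin (q + 1) → ℕ) r) (K s)) := by
    intro i
    rw [Matrix.det_succ_row_zero]
    simp only [hc₀, Finset.sum_mul]
    rw [Finset.sum_comm]
    refine Finset.sum_congr rfl fun t _ => ?_
    simp only [ite_mul, zero_mul, Finset.sum_ite_eq, Finset.mem_univ, if_true, Matrix.of_apply,
      Fin.cons_zero]
    have e : (Matrix.of fun r s : Fin (q + 1) => B ((Fin.cons i I : Fin (q + 1) → ℕ) r) (K s)).submatrix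
        Fin.succ t.succAbove = Matrix.of fun r s : Fin q => B (I r) (K (t.succAbove s)) := by
      ext r s
      simp
    rw [e]
    simp only [hm]
    ring
  have hbig : ∀ i, ‖∑ j, c₀ j * B i j‖ ≤ S * δ ^ (q + 1) := by
    intro i
    rw [hsum]
    rcases Nat.lt_or_ge q p with hqp | hqp
    · have h2 := le_csSup hbdd (show ‖Matrix.det (Matrix.of fun r s : Fin (q + 1) =>
        B ((Fin.cons i I : Fin (q + 1) → ℕ) r) (K s))‖ / δ ^ (q + 1) ∈ X from
          ⟨q + 1, hqp, _, _, rfl⟩)
      rwa [div_le_iff₀ (by positivity)] at h2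
    · have hqe : q = p := le_antisymm hq hqp
      subst hqe
      refine (det_cols h _ K (by positivity)).trans ?_
      exact le_mul_of_one_le_left (by positivity) hS1
  have hmn : ‖m 0‖ = x * δ ^ q := by
    rw [hm0, hx]
    field_simp
  have hm0' : 0 < ‖m 0‖ := by rw [hmn]; positivity
  have hcn : ‖m 0‖ ≤ ‖c₀‖ := by
    rw [← hcj]; exact norm_le_pi_norm c₀ j₀
  have hc0 : 0 < ‖c₀‖ := hm0'.trans_le hcn
  refine ⟨fun j => (‖c₀‖⁻¹ : ℝ) • c₀ j, ?_, ?_⟩
  · have : (fun j => (‖c₀‖⁻¹ : ℝ) • c₀ j) = (‖c₀‖⁻¹ : ℝ) • c₀ := rfl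
    rw [this, norm_smul, norm_inv, norm_norm, inv_mul_cancel₀ hc0.ne']
  · intro i
    have e : ∑ j, ((‖c₀‖⁻¹ : ℝ) • c₀ j) * B i j = (‖c₀‖⁻¹ : ℝ) • ∑ j, c₀ j * B i j := by
      rw [Finset.smul_sum]
      refine Finset.sum_congr rfl fun j _ => ?_
      rw [smul_mul_assoc]
    rw [e, norm_smul, norm_inv, norm_norm, inv_mul_le_iff₀ hc0]
    refine (hbig i).trans ?_
    have h3 : S ≤ 2 * x := by linarith
    calc S * δ ^ (q + 1) ≤ 2 * x * δ ^ (q + 1) := by gcongr
      _ = ‖m 0‖ * (2 * δ) := by rw [hmn]; ring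
      _ ≤ ‖c₀‖ * (2 * δ) := by gcongr

end Vale.Agent.P097.H161.Mero
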