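import Vale.Agent.P097.H161.Mero.Uni
import Vale.Agent.P097.H161.Mero.HC2
import Vale.Agent.P097.H490.Par

/-! # P097 / H161: dependence of the minors on the parameter; product over rotations. -/

set_option linter.all false

open Complex Metric Set Filter Topology

namespace Vale.Agent.P097.H161.Mero

theorem cf_diff {F : ℂ × ℂ → ℂ} {Ω : Set (ℂ × ℂ)} (hΩ : IsOpen Ω) (hF : DifferentiableOn ℂ F Ω)
    {U : Set ℂ} (hU : IsOpen U) (h : ∀ w ∈ U, ∀ x : ℂ, ‖x‖ = 1 → (x, w) ∈ Ω) (n : ℕ) :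
    DifferentiableOn ℂ (fun w => cf (fun x => F (x, w)) n) U := by
  suffices hs : DifferentiableOn ℂ (fun w => ∫ θ in (0 : ℝ)..2 * Real.pi,
      deriv (circleMap 0 1) θ • ((fun z : ℂ => (z⁻¹) ^ n • z⁻¹ • F (z, w)) (circleMap 0 1 θ))) U by
    exact hs.const_smul (2 * Real.pi * I : ℂ)⁻¹
  have hcm : ∀ θ : ℝ, ‖circleMap 0 1 θ‖ = 1 := by
    intro θ; simp
  have hcont : ContinuousOn (fun p : ℂ × ℝ => F (circleMap 0 1 p.2, p.1)) (U ×ˢ Icc 0 (2 * Real.pi)) := by
    refine hF.continuousOn.comp (f := fun p : ℂ × ℝ => (circleMap 0 1 p.2, p.1)) ?_ ?_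
    · exact (((continuous_circleMap 0 1).comp continuous_snd).prodMk continuous_fst).continuousOn
    · rintro ⟨w, θ⟩ ⟨hw, -⟩
      exact h w hw _ (hcm θ)
  have hinv : Continuous fun p : ℂ × ℝ => (circleMap 0 1 p.2)⁻¹ := by
    refine Continuous.inv₀ ((continuous_circleMap 0 1).comp continuous_snd) fun p => ?_
    rw [← norm_pos_iff, hcm]; exact one_pos
  have hder : Continuous fun p : ℂ × ℝ => deriv (circleMap 0 1) p.2 := by
    simp only [deriv_circleMap]
    exact ((continuous_circleMap 0 1).comp continuous_snd).mul continuous_const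
  refine Vale.Agent.P097.H490.diffOn_integral hU (by positivity)
    (Φ := fun w θ => deriv (circleMap 0 1) θ • ((fun z : ℂ => (z⁻¹) ^ n • z⁻¹ • F (z, w))
      (circleMap 0 1 θ))) ?_ ?_
  · exact (hder.continuousOn).smul (((hinv.pow n).continuousOn).smul (hinv.continuousOn.smul hcont))
  · intro θ _
    have h1 : DifferentiableOn ℂ (fun w => F (circleMap 0 1 θ, w)) U := by
      intro w hw
      have h2 : DifferentiableAt ℂ F (circleMap 0 1 θ, w) :=
        (hF _ (h w hw _ (hcm θ))).differentiableAt (hΩ.mem_nhds (h w hw _ (hcm θ)))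
      have h3 : DifferentiableAt ℂ (fun w : ℂ => (circleMap 0 1 θ, w)) w :=
        (differentiableAt_const _).prodMk differentiableAt_id
      exact (DifferentiableAt.comp (g := F) w h2 h3).differentiableWithinAt
    exact ((h1.const_smul (circleMap 0 1 θ)⁻¹).const_smul ((circleMap 0 1 θ)⁻¹ ^ n)).const_smul
      (deriv (circleMap 0 1) θ)

theorem mn_diff {a : ℂ → ℕ → ℂ} {U : Set ℂ} (h : ∀ n, DifferentiableOn ℂ (fun w => a w n) U)
    (p k : ℕ) (I : Fin (p + 1) → ℕ) : DifferentiableOn ℂ (fun w => mn (a w) p k I) U := by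
  unfold mn
  simp only [Matrix.det_apply, Matrix.of_apply]
  refine DifferentiableOn.fun_sum fun σ _ => ?_
  refine DifferentiableOn.const_smul ?_ _
  refine DifferentiableOn.fun_finset_prod fun i _ => ?_
  exact h _

/-- finitely many rotations of a sector cover the circle -/
theorem exists_rot {c : ℝ} (hc : 0 < c) :
    ∃ t : Finset ℂ, t.Nonempty ∧ (∀ a ∈ t, ‖a‖ = 1) ∧
      ∀ w : ℂ, w ≠ 0 → ∃ a ∈ t, |(a * w).im| < c * |(a * w).re| := by
  classical
  have hopen : ∀ a : ℂ, IsOpen {u : ℂ | |(a * u).im| < c * |(a * u).re|} := by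
    intro a
    refine isOpen_lt ?_ ?_ <;> fun_prop
  obtain ⟨t, ht⟩ := (isCompact_sphere (0 : ℂ) 1).elim_finite_subcover
    (fun a : sphere (0 : ℂ) 1 => {u : ℂ | |((a : ℂ) * u).im| < c * |((a : ℂ) * u).re|})
    (fun a => hopen a) (by
      intro u hu
      rw [mem_sphere_zero_iff_norm] at hu
      refine mem_iUnion.2 ⟨⟨(starRingEnd ℂ) u, by
        rw [mem_sphere_zero_iff_norm, RCLike.norm_conj]; exact hu⟩, ?_⟩
      have h1 : (starRingEnd ℂ) u * u = 1 := by
        rw [mul_comm, Complex.mul_conj, Complex.normSq_eq_norm_sq, hu]; simp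
      simp only [mem_setOf_eq, h1]
      simpa using hc)
  have h1 : ∀ w : ℂ, w ≠ 0 → ∃ a ∈ t.image (fun a : sphere (0 : ℂ) 1 => (a : ℂ)),
      |(a * w).im| < c * |(a * w).re| := by
    intro w hw
    have hw0 : 0 < ‖w‖ := norm_pos_iff.2 hw
    have hu : w / ‖w‖ ∈ sphere (0 : ℂ) 1 := by
      rw [mem_sphere_zero_iff_norm, norm_div, Complex.norm_real, norm_norm, div_self hw0.ne']
    obtain ⟨a, ha⟩ := mem_iUnion.1 (ht hu)
    obtain ⟨hat, ha⟩ := mem_iUnion.1 ha
    refine ⟨a, Finset.mem_image_of_mem _ hat, ?_⟩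
    have e : (a : ℂ) * w = (‖w‖ : ℂ) * ((a : ℂ) * (w / ‖w‖)) := by
      have : (‖w‖ : ℂ) ≠ 0 := by exact_mod_cast hw0.ne'
      field_simp
    rw [e, Complex.im_ofReal_mul, Complex.re_ofReal_mul, abs_mul, abs_mul, abs_of_pos hw0]
    have ha' : |((a : ℂ) * (w / ‖w‖)).im| < c * |((a : ℂ) * (w / ‖w‖)).re| := ha
    nlinarith
  refine ⟨t.image (fun a : sphere (0 : ℂ) 1 => (a : ℂ)), ?_, ?_, h1⟩
  · obtain ⟨a, ha, -⟩ := h1 1 one_ne_zero
    exact ⟨a, ha⟩
  · intro a ha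
    obtain ⟨b, _, rfl⟩ := Finset.mem_image.1 ha
    exact mem_sphere_zero_iff_norm.1 b.2

/-- product over the rotations -/
theorem rot_bd {D : ℂ → ℂ} {r r' X Y c : ℝ} (hr : 0 < r) (hrr : r < r')
    (hD : DifferentiableOn ℂ D (ball 0 r')) {t : Finset ℂ} (ht : t.Nonempty) (ht1 : ∀ a ∈ t, ‖a‖ = 1)
    (ht2 : ∀ w : ℂ, w ≠ 0 → ∃ a ∈ t, |(a * w).im| < c * |(a * w).re|)
    (hX : ∀ w : ℂ, ‖w‖ = r → |w.im| < c * |w.re| → ‖D w‖ ≤ X) (hY : ∀ w : ℂ, ‖w‖ = r → ‖D w‖ ≤ Y)
    (hX0 : 0 ≤ X) (hY0 : 0 ≤ Y) : ‖D 0‖ ^ t.card ≤ X * Y ^ (t.card - 1) := by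
  classical
  set G : ℂ → ℂ := fun w => ∏ a ∈ t, D (a * w) with hG
  have hGd : DifferentiableOn ℂ G (ball 0 r') := by
    refine DifferentiableOn.fun_finset_prod fun a ha => ?_
    refine hD.comp (by fun_prop) fun w hw => ?_
    rw [mem_ball_zero_iff, norm_mul, ht1 a ha, one_mul]
    exact mem_ball_zero_iff.1 hw
  have hcl : DiffContOnCl ℂ G (ball 0 r) := by
    refine DifferentiableOn.diffContOnCl (hGd.mono ?_)
    rw [closure_ball _ hr.ne']
    exact closedBall_subset_ball hrr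
  have hb : ∀ w ∈ frontier (ball (0 : ℂ) r), ‖G w‖ ≤ X * Y ^ (t.card - 1) := by
    intro w hw
    rw [frontier_ball _ hr.ne', mem_sphere_zero_iff_norm] at hw
    have hw0 : w ≠ 0 := by
      rintro rfl; rw [norm_zero] at hw; linarith
    obtain ⟨a, ha, ha'⟩ := ht2 w hw0
    have hn : ∀ b ∈ t, ‖b * w‖ = r := fun b hb => by rw [norm_mul, ht1 b hb, one_mul, hw]
    simp only [hG]
    rw [norm_prod, ← Finset.mul_prod_erase t _ ha]
    have h1 : ∏ b ∈ t.erase a, ‖D (b * w)‖ ≤ Y ^ (t.card - 1) := by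
      rw [← Finset.card_erase_of_mem ha, ← Finset.prod_const]
      exact Finset.prod_le_prod (fun _ _ => norm_nonneg _)
        fun b hb => hY _ (hn b (Finset.mem_of_mem_erase hb))
    exact mul_le_mul (hX _ (hn a ha) ha') h1 (Finset.prod_nonneg fun _ _ => norm_nonneg _) hX0
  have h0 := Complex.norm_le_of_forall_mem_frontier_norm_le isBounded_ball hcl hb
    (show (0 : ℂ) ∈ closure (ball (0 : ℂ) r) from subset_closure (mem_ball_self hr))
  simp only [hG, mul_zero, Finset.prod_const, norm_pow] at h0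
  exact h0

end Vale.Agent.P097.H161.Mero
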