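import Vale.Agent.P097.H161.Mero.Zeros
import Vale.Agent.P097.H161.Mero.Coef

/-! # P097 / H161: denominators of bounded degree, uniformly in a parameter in a compact set. -/

set_option linter.all false

open Complex Metric Set Filter Topology
open scoped ComplexConjugate

namespace Vale.Agent.P097.H161.Mero

/-- the coefficients `b` of `q f`, `deg q ≤ N`, decay like `T ^ (-n)` -/
def Den (f : ℂ → ℂ) (N : ℕ) (B T : ℝ) : Prop :=
  ∃ q b : ℕ → ℂ, q 0 = 1 ∧
    (∀ n, N ≤ n → b n = ∑ i ∈ Finset.range (N + 1), q i * cf f (n - i)) ∧ ∀ n, ‖b n‖ ≤ B / T ^ n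

theorem Den.mono {f : ℂ → ℂ} {N N' : ℕ} {B B' T : ℝ} (h : Den f N B T) (hN : N ≤ N') (hB : B ≤ B')
    (hT : 0 < T) : Den f N' B' T := by
  obtain ⟨q, b, h0, h1, h2⟩ := h
  refine ⟨fun i => if i ≤ N then q i else 0, b, by simp [h0], ?_, fun n => (h2 n).trans (by gcongr)⟩
  intro n hn
  rw [h1 n (hN.trans hn)]
  have h3 : Finset.range (N + 1) ⊆ Finset.range (N' + 1) := Finset.range_mono (by omega)
  rw [← Finset.sum_subset h3]
  · refine Finset.sum_congr rfl fun i hi => ?_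
    rw [Finset.mem_range] at hi
    simp only [show i ≤ N by omega, if_true]
  · intro i _ hi
    rw [Finset.mem_range] at hi
    simp only [show ¬ i ≤ N by omega, if_false, zero_mul]

/-- the polynomial `∏ (1 - x / z i)` as a sum -/
theorem prod_poly {N n : ℕ} (hN : N ≤ n) (z : Fin N → ℂ) :
    ∃ q : ℕ → ℂ, q 0 = 1 ∧ ∀ x : ℂ, ∏ i, (1 - x / z i) = ∑ i ∈ Finset.range (n + 1), q i * x ^ i := by
  set P : Polynomial ℂ := ∏ i, (1 - Polynomial.C (z i)⁻¹ * Polynomial.X) with hP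
  have hev : ∀ x : ℂ, P.eval x = ∏ i, (1 - x / z i) := by
    intro x
    rw [hP, Polynomial.eval_prod]
    refine Finset.prod_congr rfl fun i _ => ?_
    simp only [Polynomial.eval_sub, Polynomial.eval_one, Polynomial.eval_mul, Polynomial.eval_C,
      Polynomial.eval_X]
    rw [div_eq_mul_inv, mul_comm x]
  have hdeg : P.natDegree ≤ N := by
    refine (Polynomial.natDegree_prod_le _ _).trans ?_
    have h1 : ∀ i ∈ (Finset.univ : Finset (Fin N)),
        (1 - Polynomial.C (z i)⁻¹ * Polynomial.X : Polynomial ℂ).natDegree ≤ 1 := by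
      intro i _
      refine (Polynomial.natDegree_sub_le _ _).trans (max_le (by simp) ?_)
      exact (Polynomial.natDegree_C_mul_le _ _).trans Polynomial.natDegree_X_le
    refine (Finset.sum_le_sum h1).trans ?_
    simp
  refine ⟨fun i => P.coeff i, ?_, fun x => ?_⟩
  · show P.coeff 0 = 1
    rw [Polynomial.coeff_zero_eq_eval_zero, hev]
    simp
  · rw [← hev, Polynomial.eval_eq_sum_range' (by omega : P.natDegree < n + 1)]

/-- one value of the parameter -/
theorem den_one {g h : ℂ → ℂ} {s R' R'' M MP c₀ m T : ℝ} (hs : 1 < s) (hT : 0 < T) (hTs : T ≤ s)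
    (hsR : s < R') (hR : R' < R'') (hg : DifferentiableOn ℂ g (ball 0 R''))
    (hh : DifferentiableOn ℂ h (ball 0 R'')) (hc : 0 < c₀) (hg0 : c₀ ≤ ‖g 0‖)
    (hM : ∀ x ∈ closedBall (0 : ℂ) R', ‖g x‖ ≤ M) (hMP : ∀ x ∈ closedBall (0 : ℂ) R', ‖h x‖ ≤ MP)
    {n : ℕ} (hn : M < c₀ * (R' / s) ^ n) (hg1 : ∀ x : ℂ, ‖x‖ ≤ 1 → g x ≠ 0) (hm : 0 < m)
    (hgs : ∀ x : ℂ, ‖x‖ = s → m ≤ ‖g x‖) :
    Den (fun x => h x / g x) n (MP * (1 + s) ^ n / m) T := by
  have hs0 : 0 < s := by linarith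
  obtain ⟨N, hN, z, hz, E, hE, hE0, hgE⟩ := exists_fac hs0 hsR hR hg hc hg0 hM hn
  have hsub : closedBall (0 : ℂ) s ⊆ ball 0 R'' := closedBall_subset_ball (hsR.trans hR)
  have hz1 : ∀ i, 1 ≤ ‖z i‖ := by
    intro i
    by_contra hlt
    push Not at hlt
    apply hg1 (z i) hlt.le
    rw [hgE (z i) (hsub (mem_closedBall_zero_iff.2 (hz i).2.le)),
      Finset.prod_eq_zero (Finset.mem_univ i) (by rw [div_self (hz i).1, sub_self]), mul_zero]
  have hE1 : ∀ x ∈ closedBall (0 : ℂ) s, E x ≠ 0 := by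
    intro x hx
    rw [mem_closedBall_zero_iff] at hx
    rcases hx.lt_or_eq with h1 | h1
    · exact hE0 x (mem_ball_zero_iff.2 h1)
    · intro h2
      have h3 := hgs x h1
      rw [hgE x (hsub (mem_closedBall_zero_iff.2 hx)), h2, zero_mul, norm_zero] at h3
      linarith
  obtain ⟨q, hq0, hq⟩ := prod_poly hN z
  refine ⟨q, fun k => cf (fun x => h x / E x) k, hq0, ?_, ?_⟩
  · intro k hk
    have hcont : ContinuousOn (fun x => h x / g x) (sphere (0 : ℂ) 1) := by
      have hsub1 : sphere (0 : ℂ) 1 ⊆ ball 0 R'' :=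
        sphere_subset_closedBall.trans (closedBall_subset_ball (by linarith))
      refine (hh.continuousOn.mono hsub1).div (hg.continuousOn.mono hsub1) fun x hx => ?_
      rw [mem_sphere_zero_iff_norm] at hx
      exact hg1 x hx.le
    rw [← cf_mul hcont q hk]
    refine cf_congr (fun x hx => ?_) k
    rw [← hq x]
    have hxb : x ∈ closedBall (0 : ℂ) s := by rw [mem_closedBall_zero_iff, hx]; exact hs.le
    have h1 := hE1 x hxb
    have h2 := hg1 x hx.le
    rw [hgE x (hsub hxb)] at h2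
    have h3 := right_ne_zero_of_mul h2
    rw [hgE x (hsub hxb)]
    field_simp
  · intro k
    have h1 : ContinuousOn (fun x => h x / E x) (closedBall 0 s) :=
      (hh.continuousOn.mono hsub).div (hE.continuousOn.mono hsub) hE1
    have h2 := cf_bd_large hs.le h1 (fun x hx => ?_) (B := MP * (1 + s) ^ n / m) (fun x hx => ?_) k
    · refine h2.trans ?_
      have h5 : 0 ≤ MP * (1 + s) ^ n / m := by
        have h6 := hMP 0 (mem_closedBall_self (by linarith))
        have h7 := (norm_nonneg _).trans h6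
        positivity
      have h8 : T ^ k ≤ s ^ k := pow_le_pow_left₀ hT.le hTs _
      exact div_le_div_of_nonneg_left h5 (by positivity) h8
    · have hx' : x ∈ ball (0 : ℂ) R'' := hsub (ball_subset_closedBall hx)
      exact ((hh x hx').differentiableAt (isOpen_ball.mem_nhds hx')).div
        ((hE x hx').differentiableAt (isOpen_ball.mem_nhds hx')) (hE0 x hx)
    · have hxb : x ∈ closedBall (0 : ℂ) s := by rw [mem_closedBall_zero_iff, hx]
      have h3 := hgs x hx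
      have h4 : ‖g x‖ = ‖E x‖ * ‖∏ i, (1 - x / z i)‖ := by
        rw [hgE x (hsub hxb), norm_mul]
      have h5 : ‖∏ i, (1 - x / z i)‖ ≤ (1 + s) ^ n := by
        rw [norm_prod]
        have h6 : ∀ i ∈ (Finset.univ : Finset (Fin N)), ‖1 - x / z i‖ ≤ 1 + s := by
          intro i _
          refine (norm_sub_le _ _).trans ?_
          rw [norm_one, norm_div, hx]
          have : s / ‖z i‖ ≤ s := div_le_self hs0.le (hz1 i)
          linarith
        refine (Finset.prod_le_prod (fun i _ => norm_nonneg _) h6).trans ?_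
        rw [Finset.prod_const, Finset.card_univ, Fintype.card_fin]
        exact pow_le_pow_right₀ (by linarith) hN
      have h6 := hMP x (by rw [mem_closedBall_zero_iff, hx]; exact hsR.le)
      have h7 : 0 < ‖E x‖ := norm_pos_iff.2 (hE1 x hxb)
      have h8 : m ≤ ‖E x‖ * (1 + s) ^ n := by
        rw [h4] at h3
        exact h3.trans (mul_le_mul_of_nonneg_left h5 (norm_nonneg _))
      rw [norm_div, div_le_div_iff₀ h7 hm]
      calc ‖h x‖ * m ≤ MP * (‖E x‖ * (1 + s) ^ n) :=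
            mul_le_mul h6 h8 hm.le ((norm_nonneg _).trans h6)
        _ = MP * (1 + s) ^ n * ‖E x‖ := by ring

theorem slice_diff {P : ℂ × ℂ → ℂ} {Ω : Set (ℂ × ℂ)} (hΩ : IsOpen Ω) (hP : DifferentiableOn ℂ P Ω)
    {x w : ℂ} (h : (x, w) ∈ Ω) : DifferentiableAt ℂ (fun x => P (x, w)) x := by
  have h1 : DifferentiableAt ℂ P (x, w) := (hP _ h).differentiableAt (hΩ.mem_nhds h)
  have h2 : DifferentiableAt ℂ (fun x : ℂ => (x, w)) x :=
    differentiableAt_id.prodMk (differentiableAt_const w)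
  exact DifferentiableAt.comp (g := P) x h1 h2

/-- the circle of a compact disc on which `Q(., w)` does not vanish, near one value of `w` -/
theorem exists_circle {Q : ℂ × ℂ → ℂ} {Ω : Set (ℂ × ℂ)} (hΩ : IsOpen Ω)
    (hQ : DifferentiableOn ℂ Q Ω) {T T' : ℝ} (hT : 1 < T) (hTT' : T < T') {w₁ : ℂ}
    (hsub : ∀ x ∈ closedBall (0 : ℂ) T', (x, w₁) ∈ Ω) (hQ0 : Q (0, w₁) ≠ 0) :
    ∃ s ∈ Ioo T T', ∀ x : ℂ, ‖x‖ = s → Q (x, w₁) ≠ 0 := by
  set g : ℂ → ℂ := fun x => Q (x, w₁) with hg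
  set s₂ := (T + T') / 2 with hs₂
  set s₃ := (s₂ + T') / 2 with hs₃
  have h12 : T < s₂ := by rw [hs₂]; linarith
  have h23 : s₂ < s₃ := by rw [hs₃, hs₂]; linarith
  have h34 : s₃ < T' := by rw [hs₃, hs₂]; linarith
  have hgd : DifferentiableOn ℂ g (ball 0 T') := fun x hx =>
    (slice_diff hΩ hQ (hsub x (ball_subset_closedBall hx))).differentiableWithinAt
  have hgc : ContinuousOn g (closedBall 0 s₃) :=
    hgd.continuousOn.mono (closedBall_subset_ball h34)
  obtain ⟨M, hM⟩ := (isCompact_closedBall (0 : ℂ) s₃).exists_bound_of_continuousOn hgc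
  have hc0 : 0 < ‖g 0‖ := norm_pos_iff.2 hQ0
  have h1 : 1 < s₃ / s₂ := by rw [one_lt_div (by linarith)]; exact h23
  obtain ⟨n, hn⟩ := pow_unbounded_of_one_lt (M / ‖g 0‖) h1
  rw [div_lt_iff₀ hc0, mul_comm] at hn
  obtain ⟨N, -, z, hz, E, -, hE0, hgE⟩ := exists_fac (by linarith) h23 h34 hgd hc0 le_rfl hM hn
  have hfin : (Set.range fun i => ‖z i‖).Finite := Set.finite_range _
  have hinf : (Ioo T s₂).Infinite := Ioo_infinite h12
  obtain ⟨s, hs, hs'⟩ := (hinf.diff hfin).nonempty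
  refine ⟨s, ⟨hs.1, by linarith [hs.2]⟩, fun x hx => ?_⟩
  have hs0 : 0 < s := by linarith [hs.1]
  have hx2 : x ∈ ball (0 : ℂ) s₂ := by rw [mem_ball_zero_iff, hx]; exact hs.2
  have hx3 : x ∈ ball (0 : ℂ) T' := ball_subset_ball (by linarith) hx2
  have h2 := hgE x hx3
  simp only [hg] at h2
  rw [h2]
  refine mul_ne_zero (hE0 x hx2) (Finset.prod_ne_zero_iff.2 fun i _ => ?_)
  intro h3
  apply hs'
  refine ⟨i, ?_⟩
  have h4 : x / z i = 1 := (sub_eq_zero.1 h3).symm
  rw [div_eq_one_iff_eq (hz i).1] at h4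
  simp only [← h4, hx]

theorem uni {P Q : ℂ × ℂ → ℂ} {Ω : Set (ℂ × ℂ)} (hΩ : IsOpen Ω) (hP : DifferentiableOn ℂ P Ω)
    (hQ : DifferentiableOn ℂ Q Ω) {K : Set ℂ} (hK : IsCompact K) {T T' : ℝ} (hT : 1 < T)
    (hTT' : T < T') (hsub : ∀ w ∈ K, ∀ x ∈ closedBall (0 : ℂ) T', (x, w) ∈ Ω)
    (hQ1 : ∀ w ∈ K, ∀ x : ℂ, ‖x‖ ≤ 1 → Q (x, w) ≠ 0) :
    ∃ (N : ℕ) (B : ℝ), 1 ≤ B ∧ ∀ w ∈ K, Den (fun x => P (x, w) / Q (x, w)) N B T := by
  have hT0 : 0 < T := by linarith
  -- global bounds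
  have hKc : IsCompact (closedBall (0 : ℂ) T' ×ˢ K) := (isCompact_closedBall _ _).prod hK
  have hKs : closedBall (0 : ℂ) T' ×ˢ K ⊆ Ω := by
    rintro ⟨x, w⟩ ⟨hx, hw⟩
    exact hsub w hw x hx
  obtain ⟨M, hM⟩ := hKc.exists_bound_of_continuousOn (hQ.continuousOn.mono hKs)
  obtain ⟨MP, hMP⟩ := hKc.exists_bound_of_continuousOn (hP.continuousOn.mono hKs)
  have hcQ : ContinuousOn (fun w => Q (0, w)) K := by
    refine (hQ.continuousOn.mono hKs).comp (by fun_prop) fun w hw => ?_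
    exact ⟨mem_closedBall_self (by linarith), hw⟩
  obtain ⟨c₀, hc₀, hc₀'⟩ : ∃ c₀ > 0, ∀ w ∈ K, c₀ ≤ ‖Q (0, w)‖ := by
    rcases K.eq_empty_or_nonempty with h | h
    · exact ⟨1, one_pos, fun w hw => by rw [h] at hw; exact absurd hw (notMem_empty w)⟩
    · obtain ⟨w₀, hw₀, h2⟩ := hK.exists_isMinOn h hcQ.norm
      exact ⟨‖Q (0, w₀)‖, norm_pos_iff.2 (hQ1 w₀ hw₀ 0 (by simp)), fun w hw => h2 hw⟩
  have key : ∃ (N : ℕ) (B : ℝ), 1 ≤ B ∧ ∀ w ∈ K, w ∈ K → Den (fun x => P (x, w) / Q (x, w)) N B T := by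
    refine hK.induction_on (p := fun S => ∃ (N : ℕ) (B : ℝ), 1 ≤ B ∧ ∀ w ∈ S, w ∈ K →
      Den (fun x => P (x, w) / Q (x, w)) N B T) ?_ ?_ ?_ ?_
    · exact ⟨0, 1, le_rfl, fun w hw => absurd hw (notMem_empty w)⟩
    · rintro S S' hSS' ⟨N, B, hB, h⟩
      exact ⟨N, B, hB, fun w hw => h w (hSS' hw)⟩
    · rintro S S' ⟨N, B, hB, h⟩ ⟨N', B', hB', h'⟩
      refine ⟨max N N', max B B', hB.trans (le_max_left _ _), ?_⟩
      rintro w (hw | hw) hwK
      · exact (h w hw hwK).mono (le_max_left _ _) (le_max_left _ _) hT0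
      · exact (h' w hw hwK).mono (le_max_right _ _) (le_max_right _ _) hT0
    · intro w₁ hw₁
      obtain ⟨s, hs, hs'⟩ := exists_circle hΩ hQ hT hTT' (hsub w₁ hw₁) (hQ1 w₁ hw₁ 0 (by simp))
      have hs0 : 0 < s := by linarith [hs.1]
      have hsph : sphere (0 : ℂ) s ⊆ closedBall 0 T' :=
        sphere_subset_closedBall.trans (closedBall_subset_closedBall hs.2.le)
      -- lower bound on the circle
      have hQc : ContinuousOn (fun x => Q (x, w₁)) (sphere (0 : ℂ) s) := fun x hx =>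
        (slice_diff hΩ hQ (hsub w₁ hw₁ x (hsph hx))).continuousAt.continuousWithinAt
      obtain ⟨x₀, hx₀, hmin⟩ := (isCompact_sphere (0 : ℂ) s).exists_isMinOn
        (NormedSpace.sphere_nonempty.2 hs0.le) hQc.norm
      set m := ‖Q (x₀, w₁)‖ / 2 with hm
      have hm0 : 0 < m := by
        have : 0 < ‖Q (x₀, w₁)‖ := norm_pos_iff.2 (hs' x₀ (mem_sphere_zero_iff_norm.1 hx₀))
        rw [hm]; linarith
      have hev : ∀ᶠ w in 𝓝 w₁, ∀ x ∈ sphere (0 : ℂ) s, m ≤ ‖Q (x, w)‖ := by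
        refine (isCompact_sphere (0 : ℂ) s).eventually_forall_of_forall_eventually
          (P := fun w x => m ≤ ‖Q (x, w)‖) fun x hx => ?_
        have h1 : (x, w₁) ∈ Ω := hsub w₁ hw₁ x (hsph hx)
        have h2 : ContinuousAt Q (x, w₁) := (hQ.continuousOn.continuousAt (hΩ.mem_nhds h1))
        have h3 : ContinuousAt (fun z : ℂ × ℂ => ‖Q (z.2, z.1)‖) (w₁, x) := by
          refine ContinuousAt.norm ?_
          exact ContinuousAt.comp (g := Q) (f := fun z : ℂ × ℂ => (z.2, z.1)) h2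
            (by fun_prop)
        have h4 : m < ‖Q (x, w₁)‖ := by
          have h5 : ‖Q (x₀, w₁)‖ ≤ ‖Q (x, w₁)‖ := hmin hx
          have h6 : 0 < ‖Q (x₀, w₁)‖ := norm_pos_iff.2 (hs' x₀ (mem_sphere_zero_iff_norm.1 hx₀))
          rw [hm]; linarith
        exact (h3.eventually_const_lt h4).mono fun z hz => le_of_lt hz
      set R' := (s + T') / 2 with hR'
      have hsR : s < R' := by rw [hR']; linarith [hs.2]
      have hRT : R' < T' := by rw [hR']; linarith [hs.2]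
      have h1 : 1 < R' / s := by rw [one_lt_div hs0]; exact hsR
      obtain ⟨n, hn⟩ := pow_unbounded_of_one_lt (M / c₀) h1
      rw [div_lt_iff₀ hc₀, mul_comm] at hn
      refine ⟨{w | ∀ x ∈ sphere (0 : ℂ) s, m ≤ ‖Q (x, w)‖}, mem_nhdsWithin_of_mem_nhds hev, n,
        max 1 (MP * (1 + s) ^ n / m), le_max_left _ _, fun w hw hwK => ?_⟩
      refine Den.mono ?_ le_rfl (le_max_right _ _) hT0
      refine den_one (g := fun x => Q (x, w)) (h := fun x => P (x, w)) (R' := R') (R'' := T')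
        (M := M) (c₀ := c₀) (by linarith [hs.1]) hT0 hs.1.le hsR hRT ?_ ?_ hc₀ (hc₀' w hwK) ?_ ?_ hn
        (hQ1 w hwK) hm0 (fun x hx => hw x (mem_sphere_zero_iff_norm.2 hx))
      · exact fun x hx => (slice_diff hΩ hQ (hsub w hwK x
          (ball_subset_closedBall hx))).differentiableWithinAt
      · exact fun x hx => (slice_diff hΩ hP (hsub w hwK x
          (ball_subset_closedBall hx))).differentiableWithinAt
      · exact fun x hx => hM (x, w) ⟨closedBall_subset_closedBall hRT.le hx, hwK⟩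
      · exact fun x hx => hMP (x, w) ⟨closedBall_subset_closedBall hRT.le hx, hwK⟩
  obtain ⟨N, B, hB, h⟩ := key
  exact ⟨N, B, hB, fun w hw => h w hw hw⟩

end Vale.Agent.P097.H161.Mero
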