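import Mathlib

/-! # P097 / H161: finitely many zeros in a disc, with a bound for their number. -/

set_option linter.all false

open Complex Metric Set Filter Topology
open scoped ComplexConjugate

namespace Vale.Agent.P097.H161.Mero

theorem norm_blaschke {z x : ℂ} {R : ℝ} (hz : z ≠ 0) (hR : 0 < R) (hx : ‖x‖ = R) :
    ‖((R : ℂ) ^ 2 - conj z * x) / (R * z)‖ = ‖1 - x / z‖ := by
  have h1 : (R : ℂ) ^ 2 = x * conj x := by
    rw [Complex.mul_conj, Complex.normSq_eq_norm_sq, hx]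
    push_cast
    ring
  have h2 : (R : ℂ) ^ 2 - conj z * x = x * conj (x - z) := by
    rw [h1, map_sub]; ring
  have h3 : 1 - x / z = -((x - z) / z) := by field_simp; ring
  rw [h2, h3, norm_neg, norm_div, norm_div, norm_mul, norm_mul, RCLike.norm_conj, hx,
    Complex.norm_real, Real.norm_eq_abs, abs_of_pos hR]
  have : 0 < ‖z‖ := norm_pos_iff.2 hz
  field_simp

theorem count {g E : ℂ → ℂ} {s R' R'' M : ℝ} (hs : 0 < s) (hsR : s < R') (hR : R' < R'')
    (hE : DifferentiableOn ℂ E (ball 0 R'')) {N : ℕ} {z : Fin N → ℂ}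
    (hz : ∀ i, z i ≠ 0 ∧ ‖z i‖ < s) (hgE : ∀ x ∈ ball (0 : ℂ) R'', g x = E x * ∏ i, (1 - x / z i))
    (hM : ∀ x ∈ closedBall (0 : ℂ) R', ‖g x‖ ≤ M) : ‖g 0‖ * (R' / s) ^ N ≤ M := by
  have hR'0 : 0 < R' := hs.trans hsR
  set H : ℂ → ℂ := fun x => E x * ∏ i, (((R' : ℂ) ^ 2 - conj (z i) * x) / (R' * z i)) with hH
  have hprod : Differentiable ℂ fun x : ℂ => ∏ i, (((R' : ℂ) ^ 2 - conj (z i) * x) / (R' * z i)) := by
    refine Differentiable.fun_finset_prod fun i _ => ?_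
    fun_prop
  have hHd : DifferentiableOn ℂ H (ball 0 R'') := hE.mul hprod.differentiableOn
  have hcl : DiffContOnCl ℂ H (ball 0 R') := by
    refine DifferentiableOn.diffContOnCl (hHd.mono ?_)
    rw [closure_ball _ hR'0.ne']
    exact closedBall_subset_ball hR
  have hb : ∀ x ∈ frontier (ball (0 : ℂ) R'), ‖H x‖ ≤ M := by
    intro x hx
    rw [frontier_ball _ hR'0.ne', mem_sphere_zero_iff_norm] at hx
    have hxb : x ∈ ball (0 : ℂ) R'' := by rw [mem_ball_zero_iff, hx]; exact hR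
    have h1 : ‖H x‖ = ‖g x‖ := by
      rw [hgE x hxb]
      simp only [hH]
      rw [norm_mul, norm_mul, norm_prod, norm_prod]
      congr 1
      exact Finset.prod_congr rfl fun i _ => norm_blaschke (hz i).1 hR'0 hx
    rw [h1]
    exact hM x (by rw [mem_closedBall_zero_iff, hx])
  have h0 := Complex.norm_le_of_forall_mem_frontier_norm_le isBounded_ball hcl hb
    (show (0 : ℂ) ∈ closure (ball (0 : ℂ) R') from subset_closure (mem_ball_self hR'0))
  have hE0 : g 0 = E 0 := by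
    rw [hgE 0 (mem_ball_self (hR'0.trans hR))]
    simp
  have h2 : ‖H 0‖ = ‖g 0‖ * ∏ i, (R' / ‖z i‖) := by
    simp only [hH]
    rw [norm_mul, ← hE0, norm_prod]
    congr 1
    refine Finset.prod_congr rfl fun i _ => ?_
    rw [mul_zero, sub_zero, norm_div, norm_mul, norm_pow, Complex.norm_real, Real.norm_eq_abs,
      abs_of_pos hR'0]
    have : 0 < ‖z i‖ := norm_pos_iff.2 (hz i).1
    field_simp
  have h3 : (R' / s) ^ N ≤ ∏ i, (R' / ‖z i‖) := by
    have : (R' / s) ^ N = ∏ i : Fin N, (R' / s) := by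
      rw [Finset.prod_const, Finset.card_univ, Fintype.card_fin]
    rw [this]
    refine Finset.prod_le_prod (fun i _ => by positivity) fun i _ => ?_
    exact div_le_div_of_nonneg_left hR'0.le (norm_pos_iff.2 (hz i).1) (hz i).2.le
  calc ‖g 0‖ * (R' / s) ^ N ≤ ‖g 0‖ * ∏ i, (R' / ‖z i‖) :=
        mul_le_mul_of_nonneg_left h3 (norm_nonneg _)
    _ = ‖H 0‖ := h2.symm
    _ ≤ M := h0

theorem exists_fac {g : ℂ → ℂ} {s R' R'' M c₀ : ℝ} (hs : 0 < s) (hsR : s < R') (hR : R' < R'')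
    (hg : DifferentiableOn ℂ g (ball 0 R'')) (hc : 0 < c₀) (hg0 : c₀ ≤ ‖g 0‖)
    (hM : ∀ x ∈ closedBall (0 : ℂ) R', ‖g x‖ ≤ M) {n : ℕ} (hn : M < c₀ * (R' / s) ^ n) :
    ∃ N ≤ n, ∃ z : Fin N → ℂ, (∀ i, z i ≠ 0 ∧ ‖z i‖ < s) ∧ ∃ E : ℂ → ℂ,
      DifferentiableOn ℂ E (ball 0 R'') ∧ (∀ x ∈ ball (0 : ℂ) s, E x ≠ 0) ∧
      ∀ x ∈ ball (0 : ℂ) R'', g x = E x * ∏ i, (1 - x / z i) := by
  classical
  set S : ℕ → Prop := fun N => ∃ z : Fin N → ℂ, (∀ i, z i ≠ 0 ∧ ‖z i‖ < s) ∧ ∃ E : ℂ → ℂ,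
    DifferentiableOn ℂ E (ball 0 R'') ∧ ∀ x ∈ ball (0 : ℂ) R'', g x = E x * ∏ i, (1 - x / z i)
    with hS
  have hR'0 : 0 < R' := hs.trans hsR
  have hS0 : S 0 := ⟨fun i => i.elim0, fun i => i.elim0, g, hg, fun x _ => by simp⟩
  have hSn : ∀ N, S N → N < n := by
    rintro N ⟨z, hz, E, hE, hgE⟩
    have h1 := count hs hsR hR hE hz hgE hM
    by_contra h2
    push Not at h2
    have h3 : 1 ≤ R' / s := by rw [one_le_div hs]; exact hsR.le
    have h4 : (R' / s) ^ n ≤ (R' / s) ^ N := pow_le_pow_right₀ h3 h2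
    have h5 : c₀ * (R' / s) ^ n ≤ ‖g 0‖ * (R' / s) ^ N := by gcongr
    linarith
  set N := Nat.findGreatest S n with hN
  have hSN : S N := Nat.findGreatest_spec (Nat.zero_le n) hS0
  have hmax : ¬ S (N + 1) := by
    intro h
    have h1 := hSn _ h
    have := Nat.le_findGreatest (P := S) h1.le h
    omega
  obtain ⟨z, hz, E, hE, hgE⟩ := hSN
  refine ⟨N, Nat.findGreatest_le _, z, hz, E, hE, ?_, hgE⟩
  intro x₀ hx₀ hE0
  have hx₀' : x₀ ∈ ball (0 : ℂ) R'' :=
    ball_subset_ball (hsR.le.trans hR.le) hx₀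
  have hne : x₀ ≠ 0 := by
    rintro rfl
    have := hgE 0 hx₀'
    rw [hE0, zero_mul] at this
    rw [this, norm_zero] at hg0
    linarith
  apply hmax
  refine ⟨Fin.cons x₀ z, ?_, fun x => -x₀ * dslope E x₀ x, ?_, ?_⟩
  · intro i
    refine Fin.cases ?_ (fun j => ?_) i
    · simpa using ⟨hne, mem_ball_zero_iff.1 hx₀⟩
    · simpa using hz j
  · exact ((Complex.differentiableOn_dslope (isOpen_ball.mem_nhds hx₀')).2 hE).const_mul _
  · intro x hx
    rw [Fin.prod_univ_succ]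
    simp only [Fin.cons_zero, Fin.cons_succ]
    rw [hgE x hx]
    have h1 : E x = (x - x₀) * dslope E x₀ x := by
      have := sub_smul_dslope E x₀ x
      rw [smul_eq_mul, hE0, sub_zero] at this
      exact this.symm
    rw [h1]
    field_simp
    ring

end Vale.Agent.P097.H161.Mero
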